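import Mathlib

open Finset
open scoped Classical

namespace Vale.Agent.Lib.P064

variable {α V : Type} [Fintype α] [Fintype V]

/-- Edges of `F` with an endpoint in `A` and all endpoints in `A ∪ S`. -/
noncomputable def inc (F : SimpleGraph α) (A S : Finset α) : Finset (Sym2 α) :=
  F.edgeFinset.filter (fun e => (∃ x ∈ A, x ∈ e) ∧ ∀ x ∈ e, x ∈ A ∨ x ∈ S)

lemma mem_inc {F : SimpleGraph α} {A S : Finset α} {e : Sym2 α} :
    e ∈ inc F A S ↔ e ∈ F.edgeSet ∧ (∃ x ∈ A, x ∈ e) ∧ ∀ x ∈ e, x ∈ A ∨ x ∈ S := by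
  simp [inc, SimpleGraph.mem_edgeFinset]

/-- Weight `n^|A| q'^(e(A|S))`. -/
noncomputable def aval (F : SimpleGraph α) (n : ℕ) (q' : ℝ) (A S : Finset α) : ℝ :=
  (n : ℝ) ^ A.card * q' ^ (inc F A S).card

lemma aval_pos (F : SimpleGraph α) {n : ℕ} (hn : 0 < n) {q' : ℝ} (hq : 0 < q') (A S : Finset α) :
    0 < aval F n q' A S := by
  unfold aval; positivity

lemma card_inc_union (F : SimpleGraph α) {A N S : Finset α} (hN : Disjoint N (A ∪ S)) :
    (inc F (A ∪ N) S).card = (inc F A S).card + (inc F N (S ∪ A)).card := by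
  have hdisj : Disjoint (inc F A S) (inc F N (S ∪ A)) := by
    rw [Finset.disjoint_left]
    intro e he he'
    obtain ⟨_, _, h2⟩ := mem_inc.1 he
    obtain ⟨_, ⟨x, hx, hxe⟩, _⟩ := mem_inc.1 he'
    have := h2 x hxe
    exact (Finset.disjoint_left.1 hN hx) (by simpa using this)
  rw [← Finset.card_union_of_disjoint hdisj]
  congr 1
  ext e
  simp only [mem_union, mem_inc]
  constructor
  · rintro ⟨h0, ⟨x, hx, hxe⟩, h2⟩
    by_cases hex : ∃ y ∈ N, y ∈ e
    · right
      refine ⟨h0, hex, ?_⟩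
      intro z hz
      have := h2 z hz
      tauto
    · left
      push Not at hex
      refine ⟨h0, ?_, ?_⟩
      · rcases hx with hx | hx
        · exact ⟨x, hx, hxe⟩
        · exact absurd hxe (hex x hx)
      · intro z hz
        have := h2 z hz
        rcases this with (h | h) | h
        · exact Or.inl h
        · exact absurd hz (hex z h)
        · exact Or.inr h
  · rintro (⟨h0, ⟨x, hx, hxe⟩, h2⟩ | ⟨h0, ⟨x, hx, hxe⟩, h2⟩)
    · refine ⟨h0, ⟨x, Or.inl hx, hxe⟩, ?_⟩
      intro z hz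
      have := h2 z hz
      tauto
    · refine ⟨h0, ⟨x, Or.inr hx, hxe⟩, ?_⟩
      intro z hz
      have := h2 z hz
      tauto

lemma aval_union (F : SimpleGraph α) (n : ℕ) (q' : ℝ) {A N S : Finset α}
    (hN : Disjoint N (A ∪ S)) (hAN : Disjoint A N) :
    aval F n q' (A ∪ N) S = aval F n q' A S * aval F n q' N (S ∪ A) := by
  unfold aval
  rw [card_inc_union F hN, Finset.card_union_of_disjoint hAN, pow_add, pow_add]
  ring

/-- The extensions of `ψ` to `R`, where `S` is pinned. -/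
noncomputable def Ext (F : SimpleGraph α) (H : SimpleGraph V) (S R : Finset α) (ψ : α → V) :
    Finset (α → V) :=
  univ.filter (fun φ => (∀ x, x ∉ R → φ x = ψ x) ∧ Set.InjOn φ (↑(S ∪ R)) ∧
    ∀ x y, x ∈ S ∪ R → y ∈ S ∪ R → F.Adj x y → H.Adj (φ x) (φ y))

lemma mem_Ext {F : SimpleGraph α} {H : SimpleGraph V} {S R : Finset α} {ψ φ : α → V} :
    φ ∈ Ext F H S R ψ ↔ (∀ x, x ∉ R → φ x = ψ x) ∧ Set.InjOn φ (↑(S ∪ R)) ∧
      ∀ x y, x ∈ S ∪ R → y ∈ S ∪ R → F.Adj x y → H.Adj (φ x) (φ y) := by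
  simp [Ext]

/-- `Sym2.map` is injective on pairs with vertices on which the map is injective. -/
lemma sym2_map_inj {β γ : Type} {f : β → γ} {X : Set β} (hf : Set.InjOn f X) {e e' : Sym2 β}
    (he : ∀ x ∈ e, x ∈ X) (he' : ∀ x ∈ e', x ∈ X) (h : Sym2.map f e = Sym2.map f e') : e = e' := by
  induction e using Sym2.ind with
  | _ a b =>
    induction e' using Sym2.ind with
    | _ c d =>
      simp only [Sym2.map_mk, Sym2.eq_iff] at h
      have ha := he a (by simp)
      have hb := he b (by simp)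
      have hc := he' c (by simp)
      have hd := he' d (by simp)
      rcases h with ⟨h1, h2⟩ | ⟨h1, h2⟩
      · rw [hf ha hc h1, hf hb hd h2]
      · rw [hf ha hd h1, hf hb hc h2]; exact Sym2.eq_swap

end Vale.Agent.Lib.P064
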