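import Vale.Agent.Lib.P064.Core1

open Finset
open scoped Classical

namespace Vale.Agent.Lib.P064

variable {α V : Type} [Fintype α] [Fintype V]

/-- Vertices hit by the restrictions to `R`. -/
noncomputable def imgV (R : Finset α) (G : Finset (α → V)) : Finset V :=
  G.biUnion (fun φ => R.image φ)

/-- Edges hit by the images of the edges incident to `R`. -/
noncomputable def imgE (F : SimpleGraph α) (R S : Finset α) (G : Finset (α → V)) : Finset (Sym2 V) :=
  G.biUnion (fun φ => (inc F R S).image (Sym2.map φ))

lemma budget_pot (F : SimpleGraph α) (H : SimpleGraph V) {n : ℕ} (hn : 1 ≤ n) {q' : ℝ}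
    (hq0 : 0 < q') (hq1 : q' ≤ 1) {S R : Finset α} {ψ : α → V} (hdisj : Disjoint S R)
    (htail : ∀ N ⊆ R, N.Nonempty → aval F n q' N ((S ∪ R) \ N) ≤ 1)
    (G : Finset (α → V)) (hG : G ⊆ Ext F H S R ψ) :
    (n : ℝ) ^ (imgV R G).card * q' ^ (imgE F R S G).card ≤ 1 := by
  induction G using Finset.induction_on with
  | empty => simp [imgV, imgE]
  | insert φ G hφ ih =>
    have hG' : G ⊆ Ext F H S R ψ := (Finset.insert_subset_iff.1 hG).2
    have hφE : φ ∈ Ext F H S R ψ := (Finset.insert_subset_iff.1 hG).1
    obtain ⟨hφ1, hφ2, hφ3⟩ := mem_Ext.1 hφE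
    have ih' := ih hG'
    set N := R.filter (fun x => φ x ∉ imgV R G) with hNdef
    have hNR : N ⊆ R := Finset.filter_subset _ _
    have hinjR : Set.InjOn φ (↑N : Set α) := by
      intro a ha b hb hab
      apply hφ2 _ _ hab
      · have : a ∈ R := hNR ha
        simp [this]
      · have : b ∈ R := hNR hb
        simp [this]
    -- vertices
    have hV : (imgV R (insert φ G)).card = (imgV R G).card + N.card := by
      have h1 : imgV R (insert φ G) = imgV R G ∪ N.image φ := by
        ext v
        have hins : v ∈ imgV R (insert φ G) ↔ v ∈ R.image φ ∨ v ∈ imgV R G := by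
          simp only [imgV, Finset.biUnion_insert, mem_union]
        rw [hins, mem_union]
        constructor
        · rintro (hv | hv)
          · obtain ⟨x, hx, rfl⟩ := mem_image.1 hv
            by_cases h' : φ x ∈ imgV R G
            · exact Or.inl h'
            · exact Or.inr (mem_image.2 ⟨x, mem_filter.2 ⟨hx, h'⟩, rfl⟩)
          · exact Or.inl hv
        · rintro (hv | hv)
          · exact Or.inr hv
          · obtain ⟨x, hx, rfl⟩ := mem_image.1 hv
            exact Or.inl (mem_image.2 ⟨x, hNR hx, rfl⟩)
      have h2 : Disjoint (imgV R G) (N.image φ) := by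
        rw [Finset.disjoint_left]
        intro v hv hv'
        obtain ⟨x, hx, rfl⟩ := mem_image.1 hv'
        exact (mem_filter.1 hx).2 hv
      rw [h1, Finset.card_union_of_disjoint h2, Finset.card_image_of_injOn hinjR]
    -- edges
    have hE : (imgE F R S G).card + (inc F N ((S ∪ R) \ N)).card ≤ (imgE F R S (insert φ G)).card := by
      have hsub : imgE F R S G ∪ (inc F N ((S ∪ R) \ N)).image (Sym2.map φ) ⊆
          imgE F R S (insert φ G) := by
        intro e he
        simp only [imgE, Finset.biUnion_insert, mem_union] at he ⊢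
        rcases he with he | he
        · exact Or.inr he
        · left
          obtain ⟨e1, he1, rfl⟩ := mem_image.1 he
          refine mem_image.2 ⟨e1, ?_, rfl⟩
          obtain ⟨h0, ⟨x, hx, hxe⟩, h2⟩ := mem_inc.1 he1
          refine mem_inc.2 ⟨h0, ⟨x, hNR hx, hxe⟩, ?_⟩
          intro z hz
          rcases h2 z hz with h | h
          · exact Or.inl (hNR h)
          · have := (mem_sdiff.1 h).1
            rcases mem_union.1 this with h3 | h3
            · exact Or.inr h3
            · exact Or.inl h3
      have hdisj2 : Disjoint (imgE F R S G) ((inc F N ((S ∪ R) \ N)).image (Sym2.map φ)) := by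
        rw [Finset.disjoint_left]
        intro e he he'
        obtain ⟨e1, he1, rfl⟩ := mem_image.1 he'
        obtain ⟨_, ⟨x0, hx0, hx0e⟩, _⟩ := mem_inc.1 he1
        simp only [imgE, mem_biUnion] at he
        obtain ⟨φ', hφ', hmem⟩ := he
        obtain ⟨e2, he2, heq⟩ := mem_image.1 hmem
        have hx0m : φ x0 ∈ Sym2.map φ e1 := Sym2.mem_map.2 ⟨x0, hx0e, rfl⟩
        rw [← heq] at hx0m
        obtain ⟨z, hz, hzeq⟩ := Sym2.mem_map.1 hx0m
        obtain ⟨_, _, h2⟩ := mem_inc.1 he2
        rcases h2 z hz with hzR | hzS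
        · have : φ x0 ∈ imgV R G := by
            simp only [imgV, mem_biUnion]
            exact ⟨φ', hφ', mem_image.2 ⟨z, hzR, hzeq⟩⟩
          exact (mem_filter.1 hx0).2 this
        · have hzR : z ∉ R := Finset.disjoint_left.1 hdisj hzS
          have h1 : φ' z = ψ z := (mem_Ext.1 (hG' hφ')).1 z hzR
          have h2' : φ z = ψ z := hφ1 z hzR
          have h3 : φ x0 = φ z := by rw [← hzeq, h1, h2']
          have hx0R : x0 ∈ R := hNR hx0
          have : x0 = z := hφ2 (by simp [hx0R]) (by simp [hzS]) h3
          exact hzR (this ▸ hx0R)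
      have hinj : Set.InjOn (Sym2.map φ) (↑(inc F N ((S ∪ R) \ N)) : Set (Sym2 α)) := by
        intro e he e' he' h
        refine sym2_map_inj hφ2 ?_ ?_ h
        · intro x hx
          obtain ⟨_, _, h2⟩ := mem_inc.1 (Finset.mem_coe.1 he)
          rcases h2 x hx with h | h
          · have := hNR h
            simp [this]
          · exact Finset.mem_coe.2 (mem_sdiff.1 h).1
        · intro x hx
          obtain ⟨_, _, h2⟩ := mem_inc.1 (Finset.mem_coe.1 he')
          rcases h2 x hx with h | h
          · have := hNR h
            simp [this]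
          · exact Finset.mem_coe.2 (mem_sdiff.1 h).1
      calc (imgE F R S G).card + (inc F N ((S ∪ R) \ N)).card
          = (imgE F R S G ∪ (inc F N ((S ∪ R) \ N)).image (Sym2.map φ)).card := by
            rw [Finset.card_union_of_disjoint hdisj2, Finset.card_image_of_injOn hinj]
        _ ≤ _ := Finset.card_le_card hsub
    have hn0 : (0 : ℝ) < n := by exact_mod_cast hn
    have hN : aval F n q' N ((S ∪ R) \ N) ≤ 1 := by
      by_cases hNe : N.Nonempty
      · exact htail N hNR hNe
      · rw [Finset.not_nonempty_iff_eq_empty] at hNe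
        rw [hNe]
        simp [aval, inc]
    rw [hV]
    calc (n : ℝ) ^ ((imgV R G).card + N.card) * q' ^ (imgE F R S (insert φ G)).card
        ≤ (n : ℝ) ^ ((imgV R G).card + N.card) *
            q' ^ ((imgE F R S G).card + (inc F N ((S ∪ R) \ N)).card) := by
          apply mul_le_mul_of_nonneg_left _ (by positivity)
          exact pow_le_pow_of_le_one hq0.le hq1 hE
      _ = ((n : ℝ) ^ (imgV R G).card * q' ^ (imgE F R S G).card) *
            aval F n q' N ((S ∪ R) \ N) := by
          unfold aval; rw [pow_add, pow_add]; ring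
      _ ≤ 1 * 1 := by
          apply mul_le_mul ih' hN (aval_pos F (by omega) hq0 _ _).le (by norm_num)
      _ = 1 := by norm_num

/-- Hypothesis: every finite set of edges of `H` has expected count at least `1/2`. -/
def HypE (H : SimpleGraph V) (n : ℕ) (q : ℝ) : Prop :=
  ∀ T : Finset (Sym2 V), (∀ e ∈ T, e ∈ H.edgeSet) →
    1 ≤ 2 * (n : ℝ) ^ (T.biUnion (fun e => e.toFinset)).card * q ^ T.card

end Vale.Agent.Lib.P064
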