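import Vale.Agent.Lib.P064.Core2

open Finset
open scoped Classical

namespace Vale.Agent.Lib.P064

variable {α V : Type} [Fintype α] [Fintype V]

/-- Members of `S` adjacent to a member of `R`. -/
noncomputable def bdry (F : SimpleGraph α) (S R : Finset α) : Finset α :=
  S.filter (fun x => ∃ y ∈ R, F.Adj x y)

lemma mem_bdry {F : SimpleGraph α} {S R : Finset α} {x : α} :
    x ∈ bdry F S R ↔ x ∈ S ∧ ∃ y ∈ R, F.Adj x y := by
  simp [bdry]

lemma imgE_sub_edges (F : SimpleGraph α) (H : SimpleGraph V) {S R : Finset α} {ψ : α → V} :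
    ∀ e ∈ imgE F R S (Ext F H S R ψ), e ∈ H.edgeSet := by
  intro e he
  simp only [imgE, mem_biUnion, mem_image] at he
  obtain ⟨φ, hφ, e0, he0, rfl⟩ := he
  obtain ⟨_, _, hhom⟩ := mem_Ext.1 hφ
  obtain ⟨h0, _, h2⟩ := mem_inc.1 he0
  induction e0 using Sym2.ind with
  | _ a b =>
    have hab : F.Adj a b := h0
    have ha : a ∈ S ∪ R := by
      rcases h2 a (by simp) with h | h <;> simp [h]
    have hb : b ∈ S ∪ R := by
      rcases h2 b (by simp) with h | h <;> simp [h]
    exact hhom a b ha hb hab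

lemma verts_imgE_sub (F : SimpleGraph α) (H : SimpleGraph V) {S R : Finset α} {ψ : α → V}
    (hdisj : Disjoint S R) :
    (imgE F R S (Ext F H S R ψ)).biUnion (fun e => e.toFinset) ⊆
      imgV R (Ext F H S R ψ) ∪ (bdry F S R).image ψ := by
  intro v hv
  simp only [mem_biUnion] at hv
  obtain ⟨e, he, hve⟩ := hv
  simp only [imgE, mem_biUnion, mem_image] at he
  obtain ⟨φ, hφ, e0, he0, rfl⟩ := he
  have hv' : v ∈ Sym2.map φ e0 := by simpa using hve
  obtain ⟨z, hz, rfl⟩ := Sym2.mem_map.1 hv'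
  obtain ⟨h0, ⟨a, ha, hae⟩, h2⟩ := mem_inc.1 he0
  rcases h2 z hz with hzR | hzS
  · apply mem_union_left
    simp only [imgV, mem_biUnion]
    exact ⟨φ, hφ, mem_image.2 ⟨z, hzR, rfl⟩⟩
  · apply mem_union_right
    have hzR : z ∉ R := Finset.disjoint_left.1 hdisj hzS
    refine mem_image.2 ⟨z, mem_bdry.2 ⟨hzS, a, ha, ?_⟩, ((mem_Ext.1 hφ).1 z hzR).symm⟩
    have hne : z ≠ a := fun h => hzR (h ▸ ha)
    have : s(z, a) = e0 := ((Sym2.mem_and_mem_iff hne).1 ⟨hz, hae⟩).symm
    rw [← this] at h0
    exact h0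

lemma exp_card_T_le (F : SimpleGraph α) (H : SimpleGraph V) {n : ℕ} (hn : 1 ≤ n) {q : ℝ}
    (hq : 0 < q) (hq1 : Real.exp 1 * q ≤ 1) (hE : HypE H n q) {S R : Finset α} {ψ : α → V}
    (hdisj : Disjoint S R)
    (htail : ∀ N ⊆ R, N.Nonempty → aval F n (Real.exp 1 * q) N ((S ∪ R) \ N) ≤ 1) :
    Real.exp ((imgE F R S (Ext F H S R ψ)).card : ℝ) ≤ 2 * (n : ℝ) ^ (bdry F S R).card := by
  set T := imgE F R S (Ext F H S R ψ) with hT
  have hbudget := budget_pot F H hn (q' := Real.exp 1 * q) (by positivity) hq1 hdisj htail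
    (Ext F H S R ψ) (Finset.Subset.refl _)
  rw [← hT] at hbudget
  have h1 := hE T (imgE_sub_edges F H)
  have hn1 : (1 : ℝ) ≤ n := by exact_mod_cast hn
  have hn0 : (0 : ℝ) < n := by linarith
  have hcard : (T.biUnion (fun e => e.toFinset)).card ≤
      (imgV R (Ext F H S R ψ)).card + (bdry F S R).card := by
    calc _ ≤ (imgV R (Ext F H S R ψ) ∪ (bdry F S R).image ψ).card :=
          Finset.card_le_card (verts_imgE_sub F H hdisj)
      _ ≤ _ := (Finset.card_union_le _ _).trans (by gcongr; exact Finset.card_image_le)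
  have h2 : (n : ℝ) ^ (T.biUnion (fun e => e.toFinset)).card ≤
      (n : ℝ) ^ (imgV R (Ext F H S R ψ)).card * (n : ℝ) ^ (bdry F S R).card := by
    rw [← pow_add]; exact pow_le_pow_right₀ hn1 hcard
  have hexp : Real.exp (T.card : ℝ) = Real.exp 1 ^ T.card := by
    rw [← Real.exp_nat_mul]; simp
  rw [hexp]
  have hqp : 0 < q ^ T.card := by positivity
  have hep : 0 < Real.exp 1 ^ T.card := by positivity
  calc Real.exp 1 ^ T.card = Real.exp 1 ^ T.card * 1 := by ring
    _ ≤ Real.exp 1 ^ T.card * (2 * (n : ℝ) ^ (T.biUnion (fun e => e.toFinset)).card * q ^ T.card) := by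
        gcongr
    _ ≤ Real.exp 1 ^ T.card * (2 * ((n : ℝ) ^ (imgV R (Ext F H S R ψ)).card *
          (n : ℝ) ^ (bdry F S R).card) * q ^ T.card) := by gcongr
    _ = 2 * (n : ℝ) ^ (bdry F S R).card *
          ((n : ℝ) ^ (imgV R (Ext F H S R ψ)).card * (Real.exp 1 * q) ^ T.card) := by
        rw [mul_pow]; ring
    _ ≤ 2 * (n : ℝ) ^ (bdry F S R).card * 1 := by gcongr
    _ = _ := by ring

/-- The edge sets attached to a boundary vertex. -/
noncomputable def Dx (ψ : α → V) (T : Finset (Sym2 V)) (x : α) : Finset (Sym2 V) :=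
  T.filter (fun e => ψ x ∈ e)

lemma Dx_pairwise_disjoint (F : SimpleGraph α) (H : SimpleGraph V) {S R : Finset α} {ψ : α → V}
    (hdisj : Disjoint S R) (hne : (Ext F H S R ψ).Nonempty) {x x' : α} (hx : x ∈ S) (hx' : x' ∈ S)
    (hxx : x ≠ x') :
    Disjoint (Dx ψ (imgE F R S (Ext F H S R ψ)) x) (Dx ψ (imgE F R S (Ext F H S R ψ)) x') := by
  rw [Finset.disjoint_left]
  intro e he he'
  obtain ⟨heT, h1⟩ := mem_filter.1 he
  obtain ⟨_, h2⟩ := mem_filter.1 he'
  simp only [imgE, mem_biUnion, mem_image] at heT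
  obtain ⟨φ, hφ, e0, he0, rfl⟩ := heT
  obtain ⟨hoff, hinj, _⟩ := mem_Ext.1 hφ
  obtain ⟨_, ⟨a, ha, hae⟩, _⟩ := mem_inc.1 he0
  have hxR : x ∉ R := Finset.disjoint_left.1 hdisj hx
  have hxR' : x' ∉ R := Finset.disjoint_left.1 hdisj hx'
  obtain ⟨z, hz, hzeq⟩ := Sym2.mem_map.1 h1
  obtain ⟨z', hz', hzeq'⟩ := Sym2.mem_map.1 h2
  rw [← hoff x hxR] at hzeq
  rw [← hoff x' hxR'] at hzeq'
  obtain ⟨b, hb⟩ := Sym2.mem_iff_exists.1 hae
  -- all members of `e0` lie in `S ∪ R`
  obtain ⟨_, _, h3⟩ := mem_inc.1 he0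
  have hmem : ∀ w ∈ e0, w ∈ (↑(S ∪ R) : Set α) := by
    intro w hw
    rcases h3 w hw with h | h <;> simp [h]
  have hxs : x ∈ (↑(S ∪ R) : Set α) := by simp [hx]
  have hxs' : x' ∈ (↑(S ∪ R) : Set α) := by simp [hx']
  have hzx : z = x := hinj (hmem z hz) hxs hzeq
  have hzx' : z' = x' := hinj (hmem z' hz') hxs' hzeq'
  subst hzx hzx'
  have hne1 : a ≠ z := fun h => hxR (h ▸ ha)
  have hne2 : a ≠ z' := fun h => hxR' (h ▸ ha)
  have e1 : s(a, z) = e0 := ((Sym2.mem_and_mem_iff hne1).1 ⟨hae, hz⟩).symm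
  have e2 : s(a, z') = e0 := ((Sym2.mem_and_mem_iff hne2).1 ⟨hae, hz'⟩).symm
  have := e1.trans e2.symm
  rw [Sym2.congr_right] at this
  exact hxx this

lemma Dx_sum_le (F : SimpleGraph α) (H : SimpleGraph V) {S R : Finset α} {ψ : α → V}
    (hdisj : Disjoint S R) (hne : (Ext F H S R ψ).Nonempty) :
    ∑ x ∈ bdry F S R, (Dx ψ (imgE F R S (Ext F H S R ψ)) x).card ≤
      (imgE F R S (Ext F H S R ψ)).card := by
  rw [← Finset.card_biUnion]
  · apply Finset.card_le_card
    intro e he
    simp only [mem_biUnion] at he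
    obtain ⟨x, _, hx⟩ := he
    exact (mem_filter.1 hx).1
  · intro x hx x' hx' hxx
    exact Dx_pairwise_disjoint F H hdisj hne (mem_bdry.1 hx).1 (mem_bdry.1 hx').1 hxx

/-- Extensions whose value at `y` is `h` are extensions with `y` pinned. -/
lemma fiber_sub {F : SimpleGraph α} {H : SimpleGraph V} {S R : Finset α} {ψ φ : α → V} {y : α}
    (hy : y ∈ R) (hφ : φ ∈ Ext F H S R ψ) :
    φ ∈ Ext F H (S ∪ {y}) (R.erase y) (Function.update ψ y (φ y)) := by
  obtain ⟨h1, h2, h3⟩ := mem_Ext.1 hφ
  have hset : S ∪ {y} ∪ R.erase y = S ∪ R := by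
    ext z
    simp only [mem_union, mem_singleton, mem_erase]
    by_cases hz : z = y
    · subst hz; simp [hy]
    · simp [hz]
  refine mem_Ext.2 ⟨?_, ?_, ?_⟩
  · intro x hx
    by_cases hxy : x = y
    · subst hxy; simp
    · rw [Function.update_of_ne hxy]
      apply h1
      intro hxR
      exact hx (mem_erase.2 ⟨hxy, hxR⟩)
  · rw [hset]; exact h2
  · rw [hset]; exact h3

/-- The pinned lemma: under the strict tail condition, few extensions. -/
theorem pinned (F : SimpleGraph α) (H : SimpleGraph V) {n : ℕ} (hn : 2 ≤ n) {q : ℝ}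
    (hq : 0 < q) (hq1 : Real.exp 1 * q ≤ 1) (hE : HypE H n q) :
    ∀ (k : ℕ) (S R : Finset α) (ψ : α → V), R.card = k → Disjoint S R →
      (∀ N ⊆ R, N.Nonempty → aval F n (Real.exp 1 * q) N ((S ∪ R) \ N) ≤ 1) →
      ((Ext F H S R ψ).card : ℝ) ≤ (1 + Real.log n) ^ k := by
  intro k
  have hn1 : (1 : ℝ) ≤ n := by exact_mod_cast (by omega : 1 ≤ n)
  have hn2 : (2 : ℝ) ≤ n := by exact_mod_cast hn
  have hlog0 : 0 ≤ Real.log n := Real.log_nonneg hn1
  have hW0 : (0 : ℝ) ≤ 1 + Real.log n := by linarith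
  induction k with
  | zero =>
    intro S R ψ hR _ _
    have hR0 : R = ∅ := Finset.card_eq_zero.1 hR
    subst hR0
    have : Ext F H S ∅ ψ ⊆ {ψ} := by
      intro φ hφ
      obtain ⟨h1, _, _⟩ := mem_Ext.1 hφ
      rw [mem_singleton]
      funext x
      exact h1 x (by simp)
    have hc := Finset.card_le_card this
    simp only [card_singleton] at hc
    simp only [pow_zero]
    exact_mod_cast hc
  | succ k ih =>
    intro S R ψ hR hdisj htail
    by_cases hne : (Ext F H S R ψ).Nonempty
    swap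
    · rw [Finset.not_nonempty_iff_eq_empty] at hne
      rw [hne]; simp only [card_empty, Nat.cast_zero]; positivity
    set 𝓕 := Ext F H S R ψ with h𝓕
    set T := imgE F R S 𝓕 with hT
    have hexp : Real.exp (T.card : ℝ) ≤ 2 * (n : ℝ) ^ (bdry F S R).card :=
      exp_card_T_le F H (by omega) hq hq1 hE hdisj htail
    have hlogT : (T.card : ℝ) ≤ Real.log 2 + (bdry F S R).card * Real.log n := by
      have h2 := Real.log_le_log (Real.exp_pos _) hexp
      rw [Real.log_exp, Real.log_mul (by norm_num) (by positivity), Real.log_pow] at h2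
      exact h2
    have hlog2 : Real.log 2 ≤ 1 := by
      have := Real.log_two_lt_d9; linarith
    have hlog20 : 0 ≤ Real.log 2 := Real.log_nonneg (by norm_num)
    obtain ⟨φ0, hφ0⟩ := hne
    have hRne : R.Nonempty := by
      rw [← Finset.card_pos]; omega
    have hAne : (bdry F S R).Nonempty := by
      by_contra hA
      rw [Finset.not_nonempty_iff_eq_empty] at hA
      have hT1 : (T.card : ℝ) ≤ Real.log 2 := by
        rw [hA] at hlogT; simpa using hlogT
      have hT0 : T.card = 0 := by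
        by_contra h0
        have : (1 : ℝ) ≤ T.card := by exact_mod_cast Nat.one_le_iff_ne_zero.2 h0
        have := Real.log_two_lt_d9
        linarith
      have hT2 : T = ∅ := Finset.card_eq_zero.1 hT0
      have hinc : inc F R S = ∅ := by
        by_contra hc
        obtain ⟨e, he⟩ := Finset.nonempty_iff_ne_empty.2 hc
        have : Sym2.map φ0 e ∈ T := by
          rw [hT]
          simp only [imgE, mem_biUnion, mem_image]
          exact ⟨φ0, hφ0, e, he, rfl⟩
        rw [hT2] at this
        simp at this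
      have h3 := htail R (Finset.Subset.refl _) hRne
      have hset : (S ∪ R) \ R = S := by
        ext z
        simp only [mem_sdiff, mem_union]
        constructor
        · rintro ⟨h | h, h'⟩
          · exact h
          · exact absurd h h'
        · intro h
          exact ⟨Or.inl h, Finset.disjoint_left.1 hdisj h⟩
      rw [hset] at h3
      unfold aval at h3
      rw [hinc] at h3
      simp only [card_empty, pow_zero, mul_one] at h3
      have hk : 1 ≤ R.card := Finset.card_pos.2 hRne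
      have : (2 : ℝ) ≤ (n : ℝ) ^ R.card := by
        calc (2 : ℝ) ≤ n := hn2
          _ = (n : ℝ) ^ 1 := (pow_one _).symm
          _ ≤ _ := pow_le_pow_right₀ hn1 hk
      linarith
    -- a boundary vertex with few attached edges
    have hsum := Dx_sum_le F H hdisj ⟨φ0, hφ0⟩
    rw [← h𝓕, ← hT] at hsum
    obtain ⟨x, hxA, hxmin⟩ := Finset.exists_min_image (bdry F S R) (fun x => (Dx ψ T x).card) hAne
    have hmin : (bdry F S R).card * (Dx ψ T x).card ≤ T.card := by
      calc _ = ∑ _x ∈ bdry F S R, (Dx ψ T x).card := by simp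
        _ ≤ ∑ x ∈ bdry F S R, (Dx ψ T x).card := Finset.sum_le_sum hxmin
        _ ≤ _ := hsum
    have hApos : (1 : ℝ) ≤ (bdry F S R).card := by
      exact_mod_cast Finset.card_pos.2 hAne
    have hDle : ((Dx ψ T x).card : ℝ) ≤ 1 + Real.log n := by
      have h4 : ((bdry F S R).card : ℝ) * (Dx ψ T x).card ≤ T.card := by exact_mod_cast hmin
      have h5 : ((bdry F S R).card : ℝ) * (Dx ψ T x).card ≤
          (bdry F S R).card * (1 + Real.log n) := by
        calc _ ≤ (T.card : ℝ) := h4
          _ ≤ Real.log 2 + (bdry F S R).card * Real.log n := hlogT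
          _ ≤ 1 * (bdry F S R).card + (bdry F S R).card * Real.log n := by
              nlinarith
          _ = _ := by ring
      exact le_of_mul_le_mul_left h5 (by linarith)
    obtain ⟨hxS, y, hyR, hxy⟩ := mem_bdry.1 hxA
    have hxR : x ∉ R := Finset.disjoint_left.1 hdisj hxS
    -- the map to attached edges
    have hmaps : ∀ φ ∈ 𝓕, s(ψ x, φ y) ∈ Dx ψ T x := by
      intro φ hφ
      apply mem_filter.2
      refine ⟨?_, by simp⟩
      rw [hT]
      simp only [imgE, mem_biUnion, mem_image]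
      refine ⟨φ, hφ, s(x, y), ?_, ?_⟩
      · refine mem_inc.2 ⟨hxy, ⟨y, hyR, by simp⟩, ?_⟩
        intro z hz
        simp only [Sym2.mem_iff] at hz
        rcases hz with rfl | rfl
        · exact Or.inr hxS
        · exact Or.inl hyR
      · rw [Sym2.map_mk, (mem_Ext.1 hφ).1 x hxR]
    have hcard : (𝓕.card : ℝ) = ∑ e ∈ Dx ψ T x, ((𝓕.filter (fun φ => s(ψ x, φ y) = e)).card : ℝ) := by
      rw [Finset.card_eq_sum_card_fiberwise hmaps]
      push_cast
      rfl
    have hfib : ∀ e ∈ Dx ψ T x, ((𝓕.filter (fun φ => s(ψ x, φ y) = e)).card : ℝ) ≤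
        (1 + Real.log n) ^ k := by
      intro e _
      by_cases hfe : (𝓕.filter (fun φ => s(ψ x, φ y) = e)).Nonempty
      · obtain ⟨φ1, hφ1⟩ := hfe
        obtain ⟨hφ1F, hφ1e⟩ := mem_filter.1 hφ1
        have hsub : 𝓕.filter (fun φ => s(ψ x, φ y) = e) ⊆
            Ext F H (S ∪ {y}) (R.erase y) (Function.update ψ y (φ1 y)) := by
          intro φ hφ
          obtain ⟨hφF, hφe⟩ := mem_filter.1 hφ
          have hval : φ y = φ1 y := by
            have := hφe.trans hφ1e.symm
            rw [Sym2.congr_right] at this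
            exact this
          rw [← hval]
          exact fiber_sub hyR hφF
        have hih := ih (S ∪ {y}) (R.erase y) (Function.update ψ y (φ1 y))
          (by rw [Finset.card_erase_of_mem hyR]; omega)
          (by
            rw [Finset.disjoint_left]
            intro z hz hz'
            obtain ⟨hz1, hz2⟩ := mem_erase.1 hz'
            rcases mem_union.1 hz with h | h
            · exact Finset.disjoint_left.1 hdisj h hz2
            · exact hz1 (mem_singleton.1 h))
          (by
            intro N hN hNne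
            have hset : S ∪ {y} ∪ R.erase y = S ∪ R := by
              ext z
              simp only [mem_union, mem_singleton, mem_erase]
              by_cases hz : z = y
              · subst hz; simp [hyR]
              · simp [hz]
            rw [hset]
            exact htail N (hN.trans (Finset.erase_subset _ _)) hNne)
        calc ((𝓕.filter (fun φ => s(ψ x, φ y) = e)).card : ℝ)
            ≤ (Ext F H (S ∪ {y}) (R.erase y) (Function.update ψ y (φ1 y))).card := by
              exact_mod_cast Finset.card_le_card hsub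
          _ ≤ _ := hih
      · rw [Finset.not_nonempty_iff_eq_empty] at hfe
        rw [hfe]
        simp only [card_empty, Nat.cast_zero]
        positivity
    rw [hcard]
    calc _ ≤ ∑ _e ∈ Dx ψ T x, (1 + Real.log n) ^ k := Finset.sum_le_sum hfib
      _ = ((Dx ψ T x).card : ℝ) * (1 + Real.log n) ^ k := by simp
      _ ≤ (1 + Real.log n) * (1 + Real.log n) ^ k := by gcongr
      _ = (1 + Real.log n) ^ (k + 1) := by ring

end Vale.Agent.Lib.P064
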