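import Vale.Agent.Lib.P064.Core3

open Finset
open scoped Classical

namespace Vale.Agent.Lib.P064

variable {α V : Type} [Fintype α] [Fintype V]

/-- Hypothesis: every graph `K` with a copy in `H` has few automorphisms. -/
def HypK (H : SimpleGraph V) (n : ℕ) (q : ℝ) : Prop :=
  ∀ (W : Type) [Fintype W] (K : SimpleGraph W), Nonempty (K.Copy H) →
    (Nat.card (K ≃g K) : ℝ) ≤ 2 * (n : ℝ) ^ Fintype.card W * q ^ K.edgeFinset.card

/-- The sunflower graph: `p` petals on `B`, glued along `D`. -/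
def sunflower (F : SimpleGraph α) (D B : Finset α) (p : ℕ) :
    SimpleGraph (↥D ⊕ (Fin p × ↥B)) where
  Adj u v := match u, v with
    | Sum.inl s, Sum.inr (_, y) => F.Adj s y
    | Sum.inr (_, y), Sum.inl s => F.Adj y s
    | Sum.inr (i, y), Sum.inr (j, y') => i = j ∧ F.Adj y y'
    | Sum.inl _, Sum.inl _ => False
  symm := ⟨by
    rintro (s | ⟨i, y⟩) (s' | ⟨j, y'⟩) h
    · exact h
    · exact SimpleGraph.Adj.symm h
    · exact SimpleGraph.Adj.symm h
    · exact ⟨h.1.symm, SimpleGraph.Adj.symm h.2⟩⟩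
  loopless := ⟨by
    rintro (s | ⟨i, y⟩) h
    · exact h
    · exact F.loopless.irrefl _ h.2⟩

/-- Permuting the petals gives automorphisms. -/
noncomputable def petalPerm (F : SimpleGraph α) (D B : Finset α) (p : ℕ) (σ : Equiv.Perm (Fin p)) :
    sunflower F D B p ≃g sunflower F D B p where
  toEquiv := Equiv.sumCongr (Equiv.refl _) (σ.prodCongr (Equiv.refl _))
  map_rel_iff' := by
    rintro (s | ⟨i, y⟩) (s' | ⟨j, y'⟩)
    · simp [sunflower]
    · simp [sunflower]
    · simp [sunflower]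
    · simp [sunflower]

lemma factorial_le_aut (F : SimpleGraph α) (D B : Finset α) (p : ℕ) (hB : B.Nonempty) :
    p.factorial ≤ Nat.card (sunflower F D B p ≃g sunflower F D B p) := by
  have : Finite (sunflower F D B p ≃g sunflower F D B p) :=
    Finite.of_injective (fun f => (f.toEquiv : Equiv _ _)) (by
      intro f g h
      ext x
      exact congrArg (fun e : Equiv _ _ => e x) h)
  have hinj : Function.Injective (petalPerm F D B p) := by
    intro σ τ h
    ext i
    obtain ⟨y0, hy0⟩ := hB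
    have h1 := congrArg (fun f => f (Sum.inr (i, ⟨y0, hy0⟩))) h
    simp only [petalPerm] at h1
    simp only [RelIso.coe_fn_mk, Equiv.sumCongr_apply, Sum.map_inr] at h1
    have h2 := Sum.inr.inj h1
    simp only [Equiv.prodCongr_apply, Prod.map, Prod.mk.injEq] at h2
    exact congrArg Fin.val h2.1
  have := Nat.card_le_card_of_injective _ hinj
  rw [Nat.card_eq_fintype_card, Fintype.card_perm, Fintype.card_fin] at this
  exact this

/-- The map into the sunflower of petal `i`. -/
noncomputable def petalMap (D B : Finset α) (p : ℕ) (y0 : α) (hy0 : y0 ∈ B) (i : Fin p) (x : α) :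
    ↥D ⊕ (Fin p × ↥B) :=
  if hx : x ∈ B then Sum.inr (i, ⟨x, hx⟩)
  else if hd : x ∈ D then Sum.inl ⟨x, hd⟩
  else Sum.inr (i, ⟨y0, hy0⟩)

lemma petalMap_B {D B : Finset α} {p : ℕ} {y0 : α} {hy0 : y0 ∈ B} {i : Fin p} {x : α} (hx : x ∈ B) :
    petalMap D B p y0 hy0 i x = Sum.inr (i, ⟨x, hx⟩) := by
  simp [petalMap, hx]

lemma petalMap_D {D B : Finset α} {p : ℕ} {y0 : α} {hy0 : y0 ∈ B} {i : Fin p} {x : α} (hx : x ∉ B)
    (hd : x ∈ D) : petalMap D B p y0 hy0 i x = Sum.inl ⟨x, hd⟩ := by
  simp [petalMap, hx, hd]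

/-- Every edge of `inc F B S` lands on an edge of each petal. -/
lemma petal_adj (F : SimpleGraph α) {S B : Finset α} {p : ℕ} {y0 : α} {hy0 : y0 ∈ B} (i : Fin p)
    {e : Sym2 α} (he : e ∈ inc F B S) :
    Sym2.map (petalMap (bdry F S B) B p y0 hy0 i) e ∈ (sunflower F (bdry F S B) B p).edgeSet := by
  obtain ⟨h0, ⟨x, hx, hxe⟩, h2⟩ := mem_inc.1 he
  induction e using Sym2.ind with
  | _ a b =>
    have hab : F.Adj a b := h0
    simp only [Sym2.map_mk, SimpleGraph.mem_edgeSet]
    by_cases ha : a ∈ B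
    · by_cases hb : b ∈ B
      · rw [petalMap_B ha, petalMap_B hb]
        exact ⟨rfl, hab⟩
      · have hbS : b ∈ S := (h2 b (by simp)).resolve_left hb
        have hbD : b ∈ bdry F S B := mem_bdry.2 ⟨hbS, a, ha, hab.symm⟩
        rw [petalMap_B ha, petalMap_D hb hbD]
        exact hab
    · have haS : a ∈ S := (h2 a (by simp)).resolve_left ha
      have hb : b ∈ B := by
        simp only [Sym2.mem_iff] at hxe
        rcases hxe with rfl | rfl
        · exact absurd hx ha
        · exact hx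
      have haD : a ∈ bdry F S B := mem_bdry.2 ⟨haS, b, hb, hab⟩
      rw [petalMap_D ha haD, petalMap_B hb]
      exact hab

/-- The sunflower has at least `p * e` edges. -/
lemma sunflower_edges (F : SimpleGraph α) {S B : Finset α} (hdisj : Disjoint S B) (p : ℕ)
    (hB : B.Nonempty) :
    p * (inc F B S).card ≤ (sunflower F (bdry F S B) B p).edgeFinset.card := by
  obtain ⟨y0, hy0⟩ := hB
  have hcard : ((univ : Finset (Fin p)) ×ˢ inc F B S).card = p * (inc F B S).card := by
    simp [Finset.card_product]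
  rw [← hcard]
  apply Finset.card_le_card_of_injOn
    (fun ie => Sym2.map (petalMap (bdry F S B) B p y0 hy0 ie.1) ie.2)
  · rintro ⟨i, e⟩ hie
    have he : e ∈ inc F B S := (Finset.mem_product.1 hie).2
    exact SimpleGraph.mem_edgeFinset.2 (petal_adj F i he)
  · rintro ⟨i, e⟩ hie ⟨j, e'⟩ hje h
    have he : e ∈ inc F B S := (Finset.mem_product.1 hie).2
    have he' : e' ∈ inc F B S := (Finset.mem_product.1 hje).2
    simp only at h
    obtain ⟨_, ⟨x, hx, hxe⟩, h2⟩ := mem_inc.1 he
    obtain ⟨_, ⟨x', hx', hxe'⟩, h2'⟩ := mem_inc.1 he'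
    -- the petal index is determined
    have hmem : petalMap (bdry F S B) B p y0 hy0 i x ∈
        Sym2.map (petalMap (bdry F S B) B p y0 hy0 j) e' := by
      rw [← h]
      exact Sym2.mem_map.2 ⟨x, hxe, rfl⟩
    obtain ⟨z, hz, hzeq⟩ := Sym2.mem_map.1 hmem
    have hij : j = i := by
      rw [petalMap_B hx] at hzeq
      by_cases hzB : z ∈ B
      · rw [petalMap_B hzB] at hzeq
        exact (Prod.mk.inj (Sum.inr.inj hzeq)).1
      · by_cases hzD : z ∈ bdry F S B
        · rw [petalMap_D hzB hzD] at hzeq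
          exact absurd hzeq (by simp)
        · simp only [petalMap, hzB, hzD, dite_false] at hzeq
          exact (Prod.mk.inj (Sum.inr.inj hzeq)).1
    subst hij
    have hee : e = e' := by
      have hinjon : Set.InjOn (petalMap (bdry F S B) B p y0 hy0 j)
          (↑(B ∪ bdry F S B) : Set α) := by
        intro a ha b hb hab
        have ha' : a ∈ B ∪ bdry F S B := Finset.mem_coe.1 ha
        have hb' : b ∈ B ∪ bdry F S B := Finset.mem_coe.1 hb
        by_cases haB : a ∈ B
        · by_cases hbB : b ∈ B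
          · rw [petalMap_B haB, petalMap_B hbB] at hab
            have := (Prod.mk.inj (Sum.inr.inj hab)).2
            exact congrArg Subtype.val this
          · have hbD := (mem_union.1 hb').resolve_left hbB
            rw [petalMap_B haB, petalMap_D hbB hbD] at hab
            exact absurd hab (by simp)
        · have haD := (mem_union.1 ha').resolve_left haB
          by_cases hbB : b ∈ B
          · rw [petalMap_D haB haD, petalMap_B hbB] at hab
            exact absurd hab (by simp)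
          · have hbD := (mem_union.1 hb').resolve_left hbB
            rw [petalMap_D haB haD, petalMap_D hbB hbD] at hab
            exact congrArg Subtype.val (Sum.inl.inj hab)
      have hmem1 : ∀ (e1 : Sym2 α), e1 ∈ inc F B S → ∀ w ∈ e1, w ∈ (↑(B ∪ bdry F S B) : Set α) := by
        intro e1 he1 w hw
        obtain ⟨h0, ⟨t, ht, hte⟩, h3⟩ := mem_inc.1 he1
        rcases h3 w hw with hwB | hwS
        · simp [hwB]
        · have hwB : w ∉ B := Finset.disjoint_left.1 hdisj hwS
          have hne : w ≠ t := fun h => hwB (h ▸ ht)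
          have hs : s(w, t) = e1 := ((Sym2.mem_and_mem_iff hne).1 ⟨hw, hte⟩).symm
          rw [← hs] at h0
          have hwt : F.Adj w t := h0
          have : w ∈ bdry F S B := mem_bdry.2 ⟨hwS, t, ht, hwt⟩
          simp [this]
      exact sym2_map_inj hinjon (hmem1 e he) (hmem1 e' he') h
    rw [hee]

/-- From pairwise disjoint extensions we obtain a copy of the sunflower. -/
lemma sunflower_copy (F : SimpleGraph α) (H : SimpleGraph V) {S B : Finset α} {ψ : α → V}
    (hdisj : Disjoint S B) {p : ℕ} (hp : 1 ≤ p) (X : Fin p → α → V)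
    (hX : ∀ i, X i ∈ Ext F H S B ψ)
    (hXd : ∀ i j, i ≠ j → ∀ y ∈ B, ∀ y' ∈ B, X i y ≠ X j y') :
    Nonempty ((sunflower F (bdry F S B) B p).Copy H) := by
  have hoff : ∀ i, ∀ s ∈ S, X i s = ψ s := by
    intro i s hs
    exact (mem_Ext.1 (hX i)).1 s (Finset.disjoint_left.1 hdisj hs)
  have hinj : ∀ i, Set.InjOn (X i) (↑(S ∪ B) : Set α) := fun i => (mem_Ext.1 (hX i)).2.1
  have hhom : ∀ i, ∀ a b, a ∈ S ∪ B → b ∈ S ∪ B → F.Adj a b → H.Adj (X i a) (X i b) :=
    fun i => (mem_Ext.1 (hX i)).2.2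
  have hSU : ∀ s ∈ S, s ∈ (↑(S ∪ B) : Set α) := by intro s hs; simp [hs]
  have hBU : ∀ s ∈ B, s ∈ (↑(S ∪ B) : Set α) := by intro s hs; simp [hs]
  let i0 : Fin p := ⟨0, by omega⟩
  let f : ↥(bdry F S B) ⊕ (Fin p × ↥B) → V := fun u => match u with
    | Sum.inl s => ψ s.1
    | Sum.inr (i, y) => X i y.1
  have hfhom : ∀ u v, (sunflower F (bdry F S B) B p).Adj u v → H.Adj (f u) (f v) := by
    rintro (s | ⟨i, y⟩) (s' | ⟨j, y'⟩) h
    · exact absurd h id
    · have hs : s.1 ∈ S := (mem_bdry.1 s.2).1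
      have h' : F.Adj s.1 y'.1 := h
      have := hhom j s.1 y'.1 (by simp [hs]) (by simp [y'.2]) h'
      rw [hoff j s.1 hs] at this
      exact this
    · have hs : s'.1 ∈ S := (mem_bdry.1 s'.2).1
      have h' : F.Adj y.1 s'.1 := h
      have := hhom i y.1 s'.1 (by simp [y.2]) (by simp [hs]) h'
      rw [hoff i s'.1 hs] at this
      exact this
    · obtain ⟨hij, h'⟩ := h
      subst hij
      exact hhom i y.1 y'.1 (by simp [y.2]) (by simp [y'.2]) h'
  have hfinj : Function.Injective f := by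
    rintro (s | ⟨i, y⟩) (s' | ⟨j, y'⟩) h
    · have hs : s.1 ∈ S := (mem_bdry.1 s.2).1
      have hs' : s'.1 ∈ S := (mem_bdry.1 s'.2).1
      have h' : ψ s.1 = ψ s'.1 := h
      rw [← hoff i0 s.1 hs, ← hoff i0 s'.1 hs'] at h'
      have := hinj i0 (hSU _ hs) (hSU _ hs') h'
      exact congrArg Sum.inl (Subtype.ext this)
    · exfalso
      have hs : s.1 ∈ S := (mem_bdry.1 s.2).1
      have h' : ψ s.1 = X j y'.1 := h
      rw [← hoff j s.1 hs] at h'
      have := hinj j (hSU _ hs) (hBU _ y'.2) h'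
      exact Finset.disjoint_left.1 hdisj hs (this ▸ y'.2)
    · exfalso
      have hs : s'.1 ∈ S := (mem_bdry.1 s'.2).1
      have h' : X i y.1 = ψ s'.1 := h
      rw [← hoff i s'.1 hs] at h'
      have := hinj i (hBU _ y.2) (hSU _ hs) h'
      exact Finset.disjoint_left.1 hdisj hs (this ▸ y.2)
    · have h' : X i y.1 = X j y'.1 := h
      by_cases hij : i = j
      · subst hij
        have := hinj i (hBU _ y.2) (hBU _ y'.2) h'
        have hy : y = y' := Subtype.ext this
        rw [hy]
      · exact absurd h' (hXd i j hij y.1 y.2 y'.1 y'.2)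
  exact ⟨⟨⟨f, fun {u v} h => hfhom u v h⟩, hfinj⟩⟩

/-- The factorial bound from the sunflower. -/
lemma sunflower_bound (F : SimpleGraph α) (H : SimpleGraph V) {n : ℕ} (hn : 1 ≤ n) {q : ℝ}
    (hq : 0 < q) (hq1 : q ≤ 1) (hK : HypK H n q) {S B : Finset α} {ψ : α → V}
    (hdisj : Disjoint S B) (hB : B.Nonempty) {p : ℕ} (hp : 1 ≤ p) (X : Fin p → α → V)
    (hX : ∀ i, X i ∈ Ext F H S B ψ)
    (hXd : ∀ i j, i ≠ j → ∀ y ∈ B, ∀ y' ∈ B, X i y ≠ X j y') :
    (p.factorial : ℝ) ≤ 2 * (n : ℝ) ^ (bdry F S B).card *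
      ((n : ℝ) ^ B.card * q ^ (inc F B S).card) ^ p := by
  have h1 := hK _ (sunflower F (bdry F S B) B p) (sunflower_copy F H hdisj hp X hX hXd)
  have h2 : (p.factorial : ℝ) ≤ Nat.card (sunflower F (bdry F S B) B p ≃g sunflower F (bdry F S B) B p) := by
    exact_mod_cast factorial_le_aut F _ B p hB
  have hcardW : Fintype.card (↥(bdry F S B) ⊕ (Fin p × ↥B)) = (bdry F S B).card + p * B.card := by
    simp [Fintype.card_sum, Fintype.card_prod]
  rw [hcardW] at h1
  have h3 : q ^ (sunflower F (bdry F S B) B p).edgeFinset.card ≤ q ^ (p * (inc F B S).card) :=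
    pow_le_pow_of_le_one hq.le hq1 (sunflower_edges F hdisj p hB)
  have hn0 : (0 : ℝ) < n := by exact_mod_cast hn
  calc (p.factorial : ℝ) ≤ _ := h2
    _ ≤ _ := h1
    _ ≤ 2 * (n : ℝ) ^ ((bdry F S B).card + p * B.card) * q ^ (p * (inc F B S).card) := by gcongr
    _ = _ := by
      rw [mul_pow, ← pow_mul, ← pow_mul, pow_add]
      ring_nf

end Vale.Agent.Lib.P064
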