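import Vale.Agent.Lib.P064.Core4

open Finset
open scoped Classical

namespace Vale.Agent.Lib.P064

variable {α V : Type} [Fintype α] [Fintype V]

lemma p_bound {p b n : ℕ} (hn : 1 ≤ n) {A : ℝ} (hA : 1 ≤ A)
    (hp : (p.factorial : ℝ) ≤ 2 * (n : ℝ) ^ b * A ^ p) :
    (p : ℝ) ≤ A * (9 + b * Real.log n) := by
  have hn1 : (1 : ℝ) ≤ n := by exact_mod_cast hn
  have hn0 : (0 : ℝ) < n := by linarith
  have hL : 0 ≤ Real.log n := Real.log_nonneg hn1
  have hA0 : 0 < A := by linarith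
  by_contra hcon
  push Not at hcon
  set x : ℝ := (p : ℝ) with hx
  set E := Real.exp 1 with hE
  have hE0 : 0 < E := Real.exp_pos 1
  have hE1 : E < 2.7182818286 := Real.exp_one_lt_d9
  have hE2 : 2.7182818283 < E := Real.exp_one_gt_d9
  have hb0 : (0 : ℝ) ≤ (b : ℝ) * Real.log n := by positivity
  have hx0 : 0 < x := lt_of_le_of_lt (by positivity) hcon
  have h9 : 9 * A ≤ x := by nlinarith
  have hpow : x ^ p / (p.factorial : ℝ) ≤ Real.exp x :=
    Real.pow_div_factorial_le_exp x hx0.le p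
  have hexp : Real.exp x = E ^ p := by
    rw [hE, ← Real.exp_nat_mul]; simp [hx]
  rw [hexp] at hpow
  have hfac : (0 : ℝ) < (p.factorial : ℝ) := by exact_mod_cast p.factorial_pos
  have h1 : x ^ p ≤ E ^ p * (p.factorial : ℝ) := (div_le_iff₀ hfac).1 hpow
  have h2 : x ^ p ≤ E ^ p * (2 * (n : ℝ) ^ b * A ^ p) :=
    h1.trans (mul_le_mul_of_nonneg_left hp (by positivity))
  -- the ratio `r = x / (E A)` is at least `E`
  set r := x / (E * A) with hr
  have hEA : 0 < E * A := by positivity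
  have hrE : E ≤ r := by
    rw [hr, le_div_iff₀ hEA]
    nlinarith
  have hxr : x = r * (E * A) := by
    rw [hr]; field_simp
  have h3 : r ^ p ≤ 2 * (n : ℝ) ^ b := by
    have h4 : r ^ p * (E ^ p * A ^ p) ≤ (2 * (n : ℝ) ^ b) * (E ^ p * A ^ p) := by
      calc r ^ p * (E ^ p * A ^ p) = x ^ p := by rw [hxr, mul_pow, mul_pow]
        _ ≤ _ := h2
        _ = _ := by ring
    exact le_of_mul_le_mul_right h4 (by positivity)
  have h5 : E ^ p ≤ 2 * (n : ℝ) ^ b := (pow_le_pow_left₀ hE0.le hrE p).trans h3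
  have h6 : x ≤ Real.log 2 + b * Real.log n := by
    have := Real.log_le_log (by positivity) h5
    rw [Real.log_pow, hE, Real.log_exp, mul_one, Real.log_mul (by norm_num) (by positivity),
      Real.log_pow] at this
    exact this
  have h7 := Real.log_two_lt_d9
  have h8 : 1 * (9 + (b : ℝ) * Real.log n) ≤ A * (9 + b * Real.log n) :=
    mul_le_mul_of_nonneg_right hA (by positivity)
  linarith

lemma outward_exists (F : SimpleGraph α) {n : ℕ} {q' : ℝ} {S B : Finset α}
    (hdisj : Disjoint S B)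
    (hInv : ∀ A ⊆ B, A.Nonempty → 1 ≤ aval F n q' A S)
    (htail : ∀ N ⊆ B, N.Nonempty → N ≠ B → aval F n q' N ((S ∪ B) \ N) < 1)
    {R' : Finset α} (hR' : R' ⊆ B) (hne : R'.Nonempty) (hpr : R' ≠ B) :
    ∃ u ∈ R', ∃ v ∈ (S ∪ B) \ R', F.Adj u v := by
  by_contra hcon
  push Not at hcon
  have hset : inc F R' ((S ∪ B) \ R') = inc F R' S := by
    ext e
    simp only [mem_inc]
    constructor
    · rintro ⟨h0, ⟨x, hx, hxe⟩, h2⟩
      refine ⟨h0, ⟨x, hx, hxe⟩, ?_⟩
      intro z hz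
      rcases h2 z hz with h | h
      · exact Or.inl h
      · exfalso
        have hne' : x ≠ z := by
          rintro rfl
          exact (mem_sdiff.1 h).2 hx
        have hs : s(x, z) = e := ((Sym2.mem_and_mem_iff hne').1 ⟨hxe, hz⟩).symm
        rw [← hs] at h0
        exact hcon x hx z h h0
    · rintro ⟨h0, ⟨x, hx, hxe⟩, h2⟩
      refine ⟨h0, ⟨x, hx, hxe⟩, ?_⟩
      intro z hz
      rcases h2 z hz with h | h
      · exact Or.inl h
      · by_cases hzR : z ∈ R'
        · exact Or.inl hzR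
        · exact Or.inr (mem_sdiff.2 ⟨mem_union_left _ h, hzR⟩)
  have h1 := htail R' hR' hne hpr
  have h2 := hInv R' hR' hne
  unfold aval at h1 h2
  rw [hset] at h1
  linarith

lemma card_inc_ge (F : SimpleGraph α) {U : Finset α} :
    ∀ (m : ℕ) (R : Finset α), R.card = m →
      (∀ R' ⊆ R, R'.Nonempty → ∃ u ∈ R', ∃ v ∈ U \ R', F.Adj u v) →
      m ≤ (inc F R (U \ R)).card := by
  intro m
  induction m with
  | zero => intro R _ _; exact Nat.zero_le _
  | succ m ih =>
    intro R hR hout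
    have hRne : R.Nonempty := by
      rw [← Finset.card_pos]; omega
    obtain ⟨u, hu, v, hv, huv⟩ := hout R (Finset.Subset.refl _) hRne
    have hvR : v ∉ R := (mem_sdiff.1 hv).2
    have hih := ih (R.erase u) (by rw [Finset.card_erase_of_mem hu]; omega)
      (fun R' hR' hne => hout R' (hR'.trans (Finset.erase_subset _ _)) hne)
    have hsub : insert s(u, v) (inc F (R.erase u) (U \ R.erase u)) ⊆ inc F R (U \ R) := by
      intro e he
      rcases mem_insert.1 he with rfl | he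
      · refine mem_inc.2 ⟨huv, ⟨u, hu, by simp⟩, ?_⟩
        intro z hz
        simp only [Sym2.mem_iff] at hz
        rcases hz with rfl | rfl
        · exact Or.inl hu
        · exact Or.inr hv
      · obtain ⟨h0, ⟨x, hx, hxe⟩, h2⟩ := mem_inc.1 he
        refine mem_inc.2 ⟨h0, ⟨x, Finset.erase_subset _ _ hx, hxe⟩, ?_⟩
        intro z hz
        rcases h2 z hz with h | h
        · exact Or.inl (Finset.erase_subset _ _ h)
        · by_cases hzR : z ∈ R
          · exact Or.inl hzR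
          · exact Or.inr (mem_sdiff.2 ⟨(mem_sdiff.1 h).1, hzR⟩)
    have hnotin : s(u, v) ∉ inc F (R.erase u) (U \ R.erase u) := by
      intro he
      obtain ⟨_, ⟨x, hx, hxe⟩, _⟩ := mem_inc.1 he
      simp only [Sym2.mem_iff] at hxe
      rcases hxe with rfl | rfl
      · exact (mem_erase.1 hx).1 rfl
      · exact hvR (Finset.erase_subset _ _ hx)
    have := Finset.card_le_card hsub
    rw [Finset.card_insert_of_notMem hnotin] at this
    omega

lemma card_bdry_le (F : SimpleGraph α) {S B : Finset α} (hdisj : Disjoint S B) :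
    (bdry F S B).card ≤ (inc F B S).card := by
  have h : ∀ s ∈ bdry F S B, ∃ y, y ∈ B ∧ F.Adj s y := by
    intro s hs
    obtain ⟨_, y, hy, hsy⟩ := mem_bdry.1 hs
    exact ⟨y, hy, hsy⟩
  choose! y hy hsy using h
  apply Finset.card_le_card_of_injOn (fun s => s(s, y s))
  · intro s hs
    have hs' := Finset.mem_coe.1 hs
    refine Finset.mem_coe.2 (mem_inc.2 ⟨hsy s hs', ⟨y s, hy s hs', by simp⟩, ?_⟩)
    intro z hz
    simp only [Sym2.mem_iff] at hz
    rcases hz with rfl | rfl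
    · exact Or.inr (mem_bdry.1 hs').1
    · exact Or.inl (hy s hs')
  · intro s hs s' hs' h
    have hs1 := Finset.mem_coe.1 hs
    have hs1' := Finset.mem_coe.1 hs'
    simp only [Sym2.eq_iff] at h
    rcases h with ⟨h, _⟩ | ⟨h, _⟩
    · exact h
    · exfalso
      have h1 : s ∈ S := (mem_bdry.1 hs1).1
      have h2 : y s' ∈ B := hy s' hs1'
      exact Finset.disjoint_left.1 hdisj h1 (h ▸ h2)

lemma card_B_le_of_bdry (F : SimpleGraph α) {n : ℕ} {q' : ℝ} {S B : Finset α}
    (hdisj : Disjoint S B)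
    (hInv : ∀ A ⊆ B, A.Nonempty → 1 ≤ aval F n q' A S)
    (htail : ∀ N ⊆ B, N.Nonempty → N ≠ B → aval F n q' N ((S ∪ B) \ N) < 1)
    (hb : (bdry F S B).Nonempty) : B.card ≤ (inc F B S).card := by
  have h := card_inc_ge F (U := S ∪ B) B.card B rfl (by
    intro R' hR' hne
    by_cases hRB : R' = B
    · subst hRB
      obtain ⟨s, hs⟩ := hb
      obtain ⟨hsS, y, hy, hsy⟩ := mem_bdry.1 hs
      refine ⟨y, hy, s, ?_, hsy.symm⟩
      exact mem_sdiff.2 ⟨mem_union_left _ hsS, Finset.disjoint_left.1 hdisj hsS⟩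
    · exact outward_exists F hdisj hInv htail hR' hne hRB)
  have hset : (S ∪ B) \ B = S := by
    ext z
    simp only [mem_sdiff, mem_union]
    constructor
    · rintro ⟨h | h, h'⟩
      · exact h
      · exact absurd h h'
    · intro h
      exact ⟨Or.inl h, Finset.disjoint_left.1 hdisj h⟩
  rwa [hset] at h

lemma card_B_le (F : SimpleGraph α) {n : ℕ} {q' : ℝ} {S B : Finset α}
    (hdisj : Disjoint S B)
    (hInv : ∀ A ⊆ B, A.Nonempty → 1 ≤ aval F n q' A S)
    (htail : ∀ N ⊆ B, N.Nonempty → N ≠ B → aval F n q' N ((S ∪ B) \ N) < 1)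
    (hB : B.Nonempty) : B.card ≤ (inc F B S).card + 1 := by
  obtain ⟨x, hx⟩ := hB
  have h := card_inc_ge F (U := S ∪ B) (B.erase x).card (B.erase x) rfl (by
    intro R' hR' hne
    apply outward_exists F hdisj hInv htail (hR'.trans (Finset.erase_subset _ _)) hne
    rintro rfl
    exact (mem_erase.1 (hR' hx)).1 rfl)
  have hsub : inc F (B.erase x) ((S ∪ B) \ B.erase x) ⊆ inc F B S := by
    intro e he
    obtain ⟨h0, ⟨y, hy, hye⟩, h2⟩ := mem_inc.1 he
    refine mem_inc.2 ⟨h0, ⟨y, Finset.erase_subset _ _ hy, hye⟩, ?_⟩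
    intro z hz
    rcases h2 z hz with h' | h'
    · exact Or.inl (Finset.erase_subset _ _ h')
    · rcases mem_union.1 (mem_sdiff.1 h').1 with h3 | h3
      · exact Or.inr h3
      · exact Or.inl h3
  have h3 := Finset.card_le_card hsub
  rw [Finset.card_erase_of_mem hx] at h
  omega

lemma num1 : ∀ e : ℕ, 1 ≤ e → (9 : ℝ) * ((e : ℝ) + 1) ^ 2 ≤ 72 ^ e := by
  intro e he
  induction e, he using Nat.le_induction with
  | base => norm_num
  | succ m hm ih =>
    have hm1 : (1 : ℝ) ≤ m := by exact_mod_cast hm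
    have h72 : (72 : ℝ) ^ (m + 1) = 72 * 72 ^ m := by ring
    rw [h72]
    push_cast
    have h0 : (0 : ℝ) < 72 ^ m := by positivity
    nlinarith

lemma num2 : ∀ e : ℕ, 1 ≤ e → (9 : ℝ) * (e : ℝ) ^ 3 ≤ 72 ^ e := by
  intro e he
  induction e, he using Nat.le_induction with
  | base => norm_num
  | succ m hm ih =>
    have hm1 : (1 : ℝ) ≤ m := by exact_mod_cast hm
    have h72 : (72 : ℝ) ^ (m + 1) = 72 * 72 ^ m := by ring
    rw [h72]
    push_cast
    have : (m + 1 : ℝ) ^ 3 ≤ 8 * (m : ℝ) ^ 3 := by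
      have : (m + 1 : ℝ) ≤ 2 * m := by linarith
      calc (m + 1 : ℝ) ^ 3 ≤ (2 * m) ^ 3 := pow_le_pow_left₀ (by positivity) this 3
        _ = _ := by ring
    have h0 : (0 : ℝ) < 72 ^ m := by positivity
    nlinarith

/-- The final numeric inequality of the block lemma. -/
lemma final_numeric {L : ℝ} (hL : 0 ≤ L) {b k e : ℕ} (hk : 1 ≤ k) (he : 1 ≤ e) (hbe : b ≤ e)
    (hke : k ≤ e + 1) (hb : 1 ≤ b → k ≤ e) :
    (9 + b * L) * ((k : ℝ) * ((k : ℝ) * (1 + L) ^ (k - 1))) ≤ (72 * (1 + L)) ^ e := by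
  have hW : (1 : ℝ) ≤ 1 + L := by linarith
  rw [mul_pow]
  rcases Nat.eq_zero_or_pos b with hb0 | hb1
  · subst hb0
    have h1 : (1 + L) ^ (k - 1) ≤ (1 + L) ^ e := pow_le_pow_right₀ hW (by omega)
    have h2 : (k : ℝ) ≤ e + 1 := by exact_mod_cast hke
    have hk0 : (0 : ℝ) ≤ k := by positivity
    have h3 : (k : ℝ) * k ≤ ((e : ℝ) + 1) ^ 2 := by nlinarith
    have h4 := num1 e he
    have hWe : 0 ≤ (1 + L) ^ e := by positivity
    calc (9 + ((0 : ℕ) : ℝ) * L) * ((k : ℝ) * ((k : ℝ) * (1 + L) ^ (k - 1)))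
        = 9 * ((k : ℝ) * k) * (1 + L) ^ (k - 1) := by push_cast; ring
      _ ≤ 9 * (((e : ℝ) + 1) ^ 2) * (1 + L) ^ e := by gcongr
      _ ≤ _ := by
        rw [show (9 : ℝ) * (((e : ℝ) + 1) ^ 2) * (1 + L) ^ e =
          (9 * ((e : ℝ) + 1) ^ 2) * (1 + L) ^ e by ring]
        exact mul_le_mul_of_nonneg_right h4 hWe
  · have hke' := hb hb1
    have hb1' : (1 : ℝ) ≤ b := by exact_mod_cast hb1
    have hbe' : (b : ℝ) ≤ e := by exact_mod_cast hbe
    have hke'' : (k : ℝ) ≤ e := by exact_mod_cast hke'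
    have h0 : 9 + (b : ℝ) * L ≤ 9 * e * (1 + L) := by
      have : (b : ℝ) * L ≤ e * L := by gcongr
      have he1 : (1 : ℝ) ≤ e := by exact_mod_cast he
      nlinarith
    have h1 : (1 + L) * (1 + L) ^ (k - 1) ≤ (1 + L) ^ e := by
      rw [← pow_succ']
      exact pow_le_pow_right₀ hW (by omega)
    have h4 := num2 e he
    have hWe : 0 ≤ (1 + L) ^ e := by positivity
    have hk0 : (0 : ℝ) ≤ k := by positivity
    have he0 : (0 : ℝ) ≤ e := by positivity
    have hW0 : 0 ≤ (1 + L) ^ (k - 1) := by positivity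
    calc (9 + (b : ℝ) * L) * ((k : ℝ) * ((k : ℝ) * (1 + L) ^ (k - 1)))
        ≤ (9 * e * (1 + L)) * ((e : ℝ) * ((e : ℝ) * (1 + L) ^ (k - 1))) := by gcongr
      _ = 9 * (e : ℝ) ^ 3 * ((1 + L) * (1 + L) ^ (k - 1)) := by ring
      _ ≤ 9 * (e : ℝ) ^ 3 * (1 + L) ^ e := by gcongr
      _ ≤ _ := mul_le_mul_of_nonneg_right h4 hWe

lemma exists_maximal_family (E : Finset (α → V)) {B : Finset α} (hB : B.Nonempty) :
    ∃ P ⊆ E, (∀ X ∈ P, ∀ Y ∈ P, X ≠ Y → ∀ y ∈ B, ∀ y' ∈ B, X y ≠ Y y') ∧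
      ∀ φ ∈ E, ∃ X ∈ P, ∃ z ∈ B, ∃ z' ∈ B, φ z = X z' := by
  let Fam := E.powerset.filter (fun P => ∀ X ∈ P, ∀ Y ∈ P, X ≠ Y → ∀ y ∈ B, ∀ y' ∈ B, X y ≠ Y y')
  have hFam : Fam.Nonempty := ⟨∅, by simp [Fam]⟩
  obtain ⟨P, hP, hmax⟩ := Finset.exists_max_image Fam Finset.card hFam
  obtain ⟨hPE, hPd⟩ := mem_filter.1 hP
  have hPE' : P ⊆ E := Finset.mem_powerset.1 hPE
  refine ⟨P, hPE', hPd, ?_⟩
  intro φ hφ
  by_cases hφP : φ ∈ P
  · obtain ⟨y0, hy0⟩ := hB
    exact ⟨φ, hφP, y0, hy0, y0, hy0, rfl⟩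
  · by_contra hcon
    push Not at hcon
    have hins : insert φ P ∈ Fam := by
      refine mem_filter.2 ⟨Finset.mem_powerset.2 (Finset.insert_subset hφ hPE'), ?_⟩
      intro X hX Y hY hXY y hy y' hy'
      rcases mem_insert.1 hX with rfl | hX'
      · rcases mem_insert.1 hY with rfl | hY'
        · exact absurd rfl hXY
        · exact hcon Y hY' y hy y' hy'
      · rcases mem_insert.1 hY with rfl | hY'
        · exact fun h => hcon X hX' y' hy' y hy h.symm
        · exact hPd X hX' Y hY' hXY y hy y' hy'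
    have := hmax _ hins
    rw [Finset.card_insert_of_notMem hφP] at this
    omega

lemma card_biUnion_real {ι β : Type} [DecidableEq β] (s : Finset ι) (f : ι → Finset β) (M : ℝ)
    (h : ∀ a ∈ s, ((f a).card : ℝ) ≤ M) : ((s.biUnion f).card : ℝ) ≤ s.card * M := by
  calc ((s.biUnion f).card : ℝ) ≤ ((∑ a ∈ s, (f a).card : ℕ) : ℝ) := by
        exact_mod_cast Finset.card_biUnion_le
    _ = ∑ a ∈ s, ((f a).card : ℝ) := by push_cast; rfl
    _ ≤ ∑ _a ∈ s, M := Finset.sum_le_sum h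
    _ = s.card * M := by simp

/-- A block with no incident edge is a singleton and has at most `n` extensions. -/
lemma block_zero (F : SimpleGraph α) (H : SimpleGraph V) {n : ℕ} (hn : 2 ≤ n)
    (hV : Fintype.card V ≤ n) {q' : ℝ} {S B : Finset α} {ψ : α → V} (hdisj : Disjoint S B)
    (hB : B.Nonempty)
    (htail : ∀ N ⊆ B, N.Nonempty → N ≠ B → aval F n q' N ((S ∪ B) \ N) < 1)
    (he : (inc F B S).card = 0) :
    ((Ext F H S B ψ).card : ℝ) ≤ aval F n q' B S := by
  have hinc : inc F B S = ∅ := Finset.card_eq_zero.1 he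
  have hn2 : (2 : ℝ) ≤ n := by exact_mod_cast hn
  have hsingle : B.card = 1 := by
    by_contra hne
    have h1 : 1 < B.card := by
      have := Finset.card_pos.2 hB; omega
    obtain ⟨x, hx⟩ := hB
    have hprop : ({x} : Finset α) ≠ B := by
      intro h
      rw [← h] at h1
      simp at h1
    have h2 := htail {x} (by simpa using hx) (by simp) hprop
    have hinc2 : inc F {x} ((S ∪ B) \ {x}) = ∅ := by
      rw [Finset.eq_empty_iff_forall_notMem]
      intro e he'
      obtain ⟨h0, ⟨y, hy, hye⟩, h3⟩ := mem_inc.1 he'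
      have : e ∈ inc F B S := by
        refine mem_inc.2 ⟨h0, ⟨y, by rw [mem_singleton.1 hy]; exact hx, hye⟩, ?_⟩
        intro z hz
        rcases h3 z hz with h' | h'
        · rw [mem_singleton.1 h']; exact Or.inl hx
        · rcases mem_union.1 (mem_sdiff.1 h').1 with h4 | h4
          · exact Or.inr h4
          · exact Or.inl h4
      rw [hinc] at this
      simp at this
    unfold aval at h2
    rw [hinc2] at h2
    simp at h2
    linarith
  obtain ⟨x, rfl⟩ := Finset.card_eq_one.1 hsingle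
  have hle : (Ext F H S {x} ψ).card ≤ Fintype.card V := by
    rw [← Finset.card_univ]
    apply Finset.card_le_card_of_injOn (fun φ => φ x)
    · intro φ _; exact Finset.mem_coe.2 (Finset.mem_univ _)
    · intro φ hφ φ' hφ' h
      obtain ⟨h1, _, _⟩ := mem_Ext.1 (Finset.mem_coe.1 hφ)
      obtain ⟨h1', _, _⟩ := mem_Ext.1 (Finset.mem_coe.1 hφ')
      funext z
      by_cases hz : z = x
      · subst hz; exact h
      · rw [h1 z (by simpa using hz), h1' z (by simpa using hz)]
  unfold aval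
  rw [hinc]
  simp only [card_singleton, pow_one, card_empty, pow_zero, mul_one]
  exact_mod_cast hle.trans hV

lemma fiber_small (F : SimpleGraph α) (H : SimpleGraph V) {n : ℕ} (hn : 2 ≤ n)
    {q : ℝ} (hq : 0 < q) (hq1 : Real.exp 1 * q ≤ 1)
    (hE : HypE H n q) {S B : Finset α} (ψ : α → V) (hdisj : Disjoint S B)
    (htail : ∀ N ⊆ B, N.Nonempty → N ≠ B → aval F n (Real.exp 1 * q) N ((S ∪ B) \ N) < 1)
    {z : α} (hz : z ∈ B) (h : V) :
    (((Ext F H S B ψ).filter (fun φ => φ z = h)).card : ℝ) ≤ (1 + Real.log n) ^ (B.card - 1) := by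
  have hsub : (Ext F H S B ψ).filter (fun φ => φ z = h) ⊆
      Ext F H (S ∪ {z}) (B.erase z) (Function.update ψ z h) := by
    intro φ hφ
    obtain ⟨hφE, hφz⟩ := mem_filter.1 hφ
    rw [← hφz]
    exact fiber_sub hz hφE
  have hset : S ∪ {z} ∪ B.erase z = S ∪ B := by
    ext w
    simp only [mem_union, mem_singleton, mem_erase]
    by_cases hw : w = z
    · subst hw; simp [hz]
    · simp [hw]
  have hpin := pinned F H hn hq hq1 hE (B.card - 1) (S ∪ {z}) (B.erase z)
    (Function.update ψ z h) (by rw [Finset.card_erase_of_mem hz])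
    (by
      rw [Finset.disjoint_left]
      intro w hw hw'
      obtain ⟨hw1, hw2⟩ := mem_erase.1 hw'
      rcases mem_union.1 hw with h' | h'
      · exact Finset.disjoint_left.1 hdisj h' hw2
      · exact hw1 (mem_singleton.1 h'))
    (by
      intro N hN hNne
      rw [hset]
      apply (htail N (hN.trans (Finset.erase_subset _ _)) hNne _).le
      rintro rfl
      exact (mem_erase.1 (hN hz)).1 rfl)
  calc _ ≤ ((Ext F H (S ∪ {z}) (B.erase z) (Function.update ψ z h)).card : ℝ) := by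
        exact_mod_cast Finset.card_le_card hsub
    _ ≤ _ := hpin

lemma count_bound {B : Finset α} (E P : Finset (α → V)) (Wk : ℝ)
    (hPcov : ∀ φ ∈ E, ∃ X ∈ P, ∃ z ∈ B, ∃ z' ∈ B, φ z = X z')
    (hfiber : ∀ z ∈ B, ∀ h : V, ((E.filter (fun φ => φ z = h)).card : ℝ) ≤ Wk) :
    (E.card : ℝ) ≤ P.card * ((B.card : ℝ) * ((B.card : ℝ) * Wk)) := by
  have hcov : E ⊆ P.biUnion (fun X => B.biUnion (fun z => B.biUnion (fun z' =>
      E.filter (fun φ => φ z = X z')))) := by
    intro φ hφ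
    obtain ⟨X, hX, z, hz, z', hz', h⟩ := hPcov φ hφ
    simp only [mem_biUnion, mem_filter]
    exact ⟨X, hX, z, hz, z', hz', hφ, h⟩
  have h1 : (E.card : ℝ) ≤ ((P.biUnion (fun X => B.biUnion (fun z => B.biUnion (fun z' =>
      E.filter (fun φ => φ z = X z'))))).card : ℝ) := by
    exact_mod_cast Finset.card_le_card hcov
  refine h1.trans ?_
  refine card_biUnion_real P _ _ ?_
  intro X _
  refine card_biUnion_real B _ _ ?_
  intro z hz
  refine card_biUnion_real B _ _ ?_
  intro z' _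
  exact hfiber z hz (X z')

/-- The sunflower bound on the size of a maximal family. -/
lemma family_bound (F : SimpleGraph α) (H : SimpleGraph V) {n : ℕ} (hn : 2 ≤ n)
    {q : ℝ} (hq : 0 < q) (hq1 : Real.exp 1 * q ≤ 1)
    (hK : HypK H n q) {S B : Finset α} {ψ : α → V} (hdisj : Disjoint S B)
    (hB : B.Nonempty)
    (hA : 1 ≤ aval F n (Real.exp 1 * q) B S)
    {P : Finset (α → V)} (hPE : P ⊆ Ext F H S B ψ)
    (hPd : ∀ X ∈ P, ∀ Y ∈ P, X ≠ Y → ∀ y ∈ B, ∀ y' ∈ B, X y ≠ Y y') (hP1 : 1 ≤ P.card) :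
    (P.card : ℝ) ≤ aval F n (Real.exp 1 * q) B S * (9 + (bdry F S B).card * Real.log n) := by
  have hE1 : 1 < Real.exp 1 := by
    have := Real.exp_one_gt_d9; linarith
  have hq_le : q ≤ 1 := by nlinarith
  obtain ⟨X, hXdef⟩ : ∃ X : Fin P.card → α → V, ∀ i, X i = (P.equivFin.symm i).1 := ⟨_, fun _ => rfl⟩
  have hXmem : ∀ i, X i ∈ P := by
    intro i; rw [hXdef]; exact (P.equivFin.symm i).2
  have hXinj : ∀ i j, i ≠ j → X i ≠ X j := by
    intro i j hij h
    rw [hXdef, hXdef] at h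
    exact hij (P.equivFin.symm.injective (Subtype.ext h))
  have hsun := sunflower_bound F H (by omega) hq hq_le hK hdisj hB hP1 X
    (fun i => hPE (hXmem i))
    (fun i j hij y hy y' hy' => hPd _ (hXmem i) _ (hXmem j) (hXinj i j hij) y hy y' hy')
  have hα : (n : ℝ) ^ B.card * q ^ (inc F B S).card ≤ aval F n (Real.exp 1 * q) B S := by
    unfold aval
    apply mul_le_mul_of_nonneg_left _ (by positivity)
    apply pow_le_pow_left₀ hq.le
    nlinarith
  have hsun2 : (P.card.factorial : ℝ) ≤ 2 * (n : ℝ) ^ (bdry F S B).card *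
      (aval F n (Real.exp 1 * q) B S) ^ P.card := by
    refine hsun.trans ?_
    gcongr
  exact p_bound (by omega : 1 ≤ n) hA hsun2

/-- The block lemma. -/
theorem block (F : SimpleGraph α) (H : SimpleGraph V) {n : ℕ} (hn : 2 ≤ n)
    (hV : Fintype.card V ≤ n) {q : ℝ} (hq : 0 < q) (hq1 : Real.exp 1 * q ≤ 1)
    (hE : HypE H n q) (hK : HypK H n q) {S B : Finset α} (ψ : α → V) (hdisj : Disjoint S B)
    (hB : B.Nonempty)
    (hInv : ∀ A ⊆ B, A.Nonempty → 1 ≤ aval F n (Real.exp 1 * q) A S)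
    (htail : ∀ N ⊆ B, N.Nonempty → N ≠ B → aval F n (Real.exp 1 * q) N ((S ∪ B) \ N) < 1) :
    ((Ext F H S B ψ).card : ℝ) ≤
      aval F n (Real.exp 1 * q) B S * (72 * (1 + Real.log n)) ^ (inc F B S).card := by
  have hn1 : (1 : ℝ) ≤ n := by exact_mod_cast (by omega : 1 ≤ n)
  have hL : 0 ≤ Real.log n := Real.log_nonneg hn1
  have hAval1 := hInv B (Finset.Subset.refl _) hB
  rcases Nat.eq_zero_or_pos (inc F B S).card with he0 | he1
  · rw [he0]
    simp only [pow_zero, mul_one]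
    exact block_zero F H hn hV hdisj hB htail he0
  obtain ⟨P, hPE, hPd, hPcov⟩ := exists_maximal_family (Ext F H S B ψ) hB
  by_cases hEne : (Ext F H S B ψ).Nonempty
  swap
  · rw [Finset.not_nonempty_iff_eq_empty] at hEne
    rw [hEne]
    simp only [card_empty, Nat.cast_zero]
    have h72 : 0 ≤ (72 * (1 + Real.log n)) ^ (inc F B S).card := by positivity
    positivity
  have hPcard : 1 ≤ P.card := by
    obtain ⟨φ, hφ⟩ := hEne
    obtain ⟨X, hX, _⟩ := hPcov φ hφ
    exact Finset.card_pos.2 ⟨X, hX⟩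
  have hcount := count_bound (B := B) (Ext F H S B ψ) P ((1 + Real.log n) ^ (B.card - 1)) hPcov
    (fun z hz h => fiber_small F H hn hq hq1 hE ψ hdisj htail hz h)
  have hpb := family_bound F H hn hq hq1 hK hdisj hB hAval1 hPE hPd hPcard
  have hnum := final_numeric hL (b := (bdry F S B).card) (k := B.card) (e := (inc F B S).card)
    (Finset.card_pos.2 hB) he1 (card_bdry_le F hdisj) (card_B_le F hdisj hInv htail hB)
    (fun hb => card_B_le_of_bdry F hdisj hInv htail (Finset.card_pos.1 hb))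
  have hAval0 : 0 ≤ aval F n (Real.exp 1 * q) B S := by linarith
  have hprod0 : 0 ≤ (B.card : ℝ) * ((B.card : ℝ) * (1 + Real.log n) ^ (B.card - 1)) := by positivity
  calc ((Ext F H S B ψ).card : ℝ) ≤ P.card * ((B.card : ℝ) * ((B.card : ℝ) * (1 + Real.log n) ^ (B.card - 1))) := hcount
    _ ≤ (aval F n (Real.exp 1 * q) B S * (9 + (bdry F S B).card * Real.log n)) *
          ((B.card : ℝ) * ((B.card : ℝ) * (1 + Real.log n) ^ (B.card - 1))) := mul_le_mul_of_nonneg_right hpb hprod0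
    _ = aval F n (Real.exp 1 * q) B S * ((9 + (bdry F S B).card * Real.log n) *
          ((B.card : ℝ) * ((B.card : ℝ) * (1 + Real.log n) ^ (B.card - 1)))) := by ring
    _ ≤ _ := mul_le_mul_of_nonneg_left hnum hAval0

end Vale.Agent.Lib.P064
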