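import Vale.Agent.Lib.P064.Core5

open Finset
open scoped Classical

namespace Vale.Agent.Lib.P064

variable {α V : Type} [Fintype α] [Fintype V]

lemma exists_block (f : Finset α → ℝ) {R : Finset α} (hR : R.Nonempty) :
    ∃ B ⊆ R, B.Nonempty ∧ (∀ A ⊆ R, A.Nonempty → f B ≤ f A) ∧
      (∀ A ⊆ R, A.Nonempty → f A = f B → B.card ≤ A.card) := by
  let C := R.powerset.filter (fun A => A.Nonempty)
  have hC : C.Nonempty := ⟨R, by simp [C, hR]⟩
  obtain ⟨B0, hB0, hmin0⟩ := Finset.exists_min_image C f hC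
  let C' := C.filter (fun A => f A = f B0)
  have hC' : C'.Nonempty := ⟨B0, mem_filter.2 ⟨hB0, rfl⟩⟩
  obtain ⟨B, hB, hmin⟩ := Finset.exists_min_image C' Finset.card hC'
  obtain ⟨hBC, hBf⟩ := mem_filter.1 hB
  obtain ⟨hBR, hBne⟩ := mem_filter.1 hBC
  refine ⟨B, Finset.mem_powerset.1 hBR, hBne, ?_, ?_⟩
  · intro A hA hne
    rw [hBf]
    exact hmin0 A (mem_filter.2 ⟨Finset.mem_powerset.2 hA, hne⟩)
  · intro A hA hne hfA
    apply hmin A
    exact mem_filter.2 ⟨mem_filter.2 ⟨Finset.mem_powerset.2 hA, hne⟩, hfA.trans hBf⟩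

lemma tail_of_min (F : SimpleGraph α) {n : ℕ} (hn : 0 < n) {q' : ℝ} (hq' : 0 < q')
    {S B R : Finset α} (hdisjR : Disjoint S R) (hBR : B ⊆ R)
    (hmin : ∀ A ⊆ R, A.Nonempty → aval F n q' B S ≤ aval F n q' A S)
    (hmin2 : ∀ A ⊆ R, A.Nonempty → aval F n q' A S = aval F n q' B S → B.card ≤ A.card) :
    ∀ N ⊆ B, N.Nonempty → N ≠ B → aval F n q' N ((S ∪ B) \ N) < 1 := by
  intro N hN hNne hNB
  have hdisj : Disjoint S B := Finset.disjoint_of_subset_right hBR hdisjR
  set M := B \ N with hM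
  have hMne : M.Nonempty := by
    rw [hM, Finset.sdiff_nonempty]
    intro h
    exact hNB (Finset.Subset.antisymm hN h)
  have hMB : M ⊆ B := Finset.sdiff_subset
  have hset1 : (S ∪ B) \ N = S ∪ M := by
    ext z
    simp only [mem_sdiff, mem_union, hM]
    constructor
    · rintro ⟨h | h, h'⟩
      · exact Or.inl h
      · exact Or.inr ⟨h, h'⟩
    · rintro (h | ⟨h, h'⟩)
      · refine ⟨Or.inl h, fun hzN => ?_⟩
        exact Finset.disjoint_left.1 hdisj h (hN hzN)
      · exact ⟨Or.inr h, h'⟩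
  have hset2 : M ∪ N = B := Finset.sdiff_union_of_subset hN
  have hd1 : Disjoint N (M ∪ S) := by
    rw [Finset.disjoint_left]
    intro z hz hz'
    rcases mem_union.1 hz' with h | h
    · exact (mem_sdiff.1 h).2 hz
    · exact Finset.disjoint_left.1 hdisj h (hN hz)
  have hd2 : Disjoint M N := Finset.sdiff_disjoint
  have heq := aval_union F n q' hd1 hd2
  rw [hset2] at heq
  rw [hset1]
  have hMpos := aval_pos F hn hq' M S
  have hlt : aval F n q' B S < aval F n q' M S := by
    rcases lt_or_eq_of_le (hmin M (hMB.trans hBR) hMne) with h | h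
    · exact h
    · exfalso
      have h1 := hmin2 M (hMB.trans hBR) hMne h.symm
      have h2 : M.card < B.card := by
        apply Finset.card_lt_card
        refine ⟨hMB, fun hsub => ?_⟩
        obtain ⟨x, hx⟩ := hNne
        exact (mem_sdiff.1 (hsub (hN hx))).2 hx
      omega
  rw [heq] at hlt
  by_contra hcon
  push Not at hcon
  have : aval F n q' M S * 1 ≤ aval F n q' M S * aval F n q' N (S ∪ M) :=
    mul_le_mul_of_nonneg_left hcon hMpos.le
  linarith

lemma inv_step (F : SimpleGraph α) {n : ℕ} (hn : 0 < n) {q' : ℝ} (hq' : 0 < q')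
    {S B R : Finset α} (hBR : B ⊆ R) (hdisjR : Disjoint S R)
    (hmin : ∀ A ⊆ R, A.Nonempty → aval F n q' B S ≤ aval F n q' A S) :
    ∀ A ⊆ R \ B, A.Nonempty → 1 ≤ aval F n q' A (S ∪ B) := by
  intro A hA hAne
  have hAR : A ⊆ R := hA.trans Finset.sdiff_subset
  have hBA : Disjoint B A := by
    rw [Finset.disjoint_left]
    intro z hz hz'
    exact (mem_sdiff.1 (hA hz')).2 hz
  have hd1 : Disjoint A (B ∪ S) := by
    rw [Finset.disjoint_left]
    intro z hz hz'
    rcases mem_union.1 hz' with h | h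
    · exact Finset.disjoint_left.1 hBA h hz
    · exact Finset.disjoint_left.1 hdisjR h (hAR hz)
  have heq := aval_union F n q' hd1 hBA
  have hle := hmin (B ∪ A) (Finset.union_subset hBR hAR) (hAne.mono Finset.subset_union_right)
  rw [heq] at hle
  have hpos := aval_pos F hn hq' B S
  by_contra hcon
  push Not at hcon
  have : aval F n q' B S * aval F n q' A (S ∪ B) < aval F n q' B S * 1 :=
    mul_lt_mul_of_pos_left hcon hpos
  linarith

lemma set_aux {S B R : Finset α} (hBR : B ⊆ R) : S ∪ B ∪ R \ B = S ∪ R := by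
  ext z
  simp only [mem_union, mem_sdiff]
  constructor
  · rintro ((h | h) | ⟨h, _⟩)
    · exact Or.inl h
    · exact Or.inr (hBR h)
    · exact Or.inr h
  · rintro (h | h)
    · exact Or.inl (Or.inl h)
    · by_cases hzB : z ∈ B
      · exact Or.inl (Or.inr hzB)
      · exact Or.inr ⟨h, hzB⟩

/-- Fibers of the restriction to the block. -/
lemma ext_fibers (F : SimpleGraph α) (H : SimpleGraph V) {S B R : Finset α} (ψ : α → V)
    (hBR : B ⊆ R) (hdisjR : Disjoint S R) :
    Ext F H S R ψ ⊆ (Ext F H S B ψ).biUnion (fun φ' => Ext F H (S ∪ B) (R \ B) φ') := by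
  intro φ hφ
  obtain ⟨h1, h2, h3⟩ := mem_Ext.1 hφ
  rw [mem_biUnion]
  let ρ : α → V := fun x => if x ∈ B then φ x else ψ x
  have hρeq : ∀ x, x ∈ B ∨ x ∉ R → ρ x = φ x := by
    intro x hx
    by_cases hxB : x ∈ B
    · simp [ρ, hxB]
    · have hxR : x ∉ R := hx.resolve_left hxB
      simp only [ρ, hxB, if_false]; exact (h1 x hxR).symm
  have hsub : S ∪ B ⊆ S ∪ R := Finset.union_subset_union_right hBR
  have hSB : ∀ x, x ∈ S ∪ B → ρ x = φ x := by
    intro x hx
    apply hρeq
    rcases mem_union.1 hx with h | h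
    · exact Or.inr (Finset.disjoint_left.1 hdisjR h)
    · exact Or.inl h
  refine ⟨ρ, ?_, ?_⟩
  · refine mem_Ext.2 ⟨?_, ?_, ?_⟩
    · intro x hx
      simp [ρ, hx]
    · intro a ha b hb hab
      have ha' : a ∈ S ∪ B := Finset.mem_coe.1 ha
      have hb' : b ∈ S ∪ B := Finset.mem_coe.1 hb
      rw [hSB a ha', hSB b hb'] at hab
      exact h2 (Finset.mem_coe.2 (hsub ha')) (Finset.mem_coe.2 (hsub hb')) hab
    · intro a b ha hb hadj
      rw [hSB a ha, hSB b hb]
      exact h3 a b (hsub ha) (hsub hb) hadj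
  · refine mem_Ext.2 ⟨?_, ?_, ?_⟩
    · intro x hx
      symm
      apply hρeq
      by_cases hxB : x ∈ B
      · exact Or.inl hxB
      · right
        intro hxR
        exact hx (mem_sdiff.2 ⟨hxR, hxB⟩)
    · rw [set_aux hBR]; exact h2
    · rw [set_aux hBR]; exact h3

lemma ext_empty_card_le (F : SimpleGraph α) (H : SimpleGraph V) (S : Finset α) (ψ : α → V) :
    (Ext F H S ∅ ψ).card ≤ 1 := by
  have : Ext F H S ∅ ψ ⊆ {ψ} := by
    intro φ hφ
    obtain ⟨h1, _, _⟩ := mem_Ext.1 hφ
    rw [mem_singleton]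
    funext x
    exact h1 x (by simp)
  simpa using Finset.card_le_card this

/-- The chain induction. -/
theorem chain (F : SimpleGraph α) (H : SimpleGraph V) {n : ℕ} (hn : 2 ≤ n)
    (hV : Fintype.card V ≤ n) {q : ℝ} (hq : 0 < q) (hq1 : Real.exp 1 * q ≤ 1)
    (hE : HypE H n q) (hK : HypK H n q) :
    ∀ (m : ℕ) (S R : Finset α), R.card ≤ m → Disjoint S R →
      (∀ A ⊆ R, A.Nonempty → 1 ≤ aval F n (Real.exp 1 * q) A S) → ∀ ψ : α → V,
      ((Ext F H S R ψ).card : ℝ) ≤
        aval F n (Real.exp 1 * q) R S * (72 * (1 + Real.log n)) ^ (inc F R S).card := by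
  have hn0 : 0 < n := by omega
  have hn1 : (1 : ℝ) ≤ n := by exact_mod_cast (by omega : 1 ≤ n)
  have hL : 0 ≤ Real.log n := Real.log_nonneg hn1
  have hq' : 0 < Real.exp 1 * q := by positivity
  intro m
  induction m with
  | zero =>
    intro S R hR _ _ ψ
    have hR0 : R = ∅ := Finset.card_eq_zero.1 (by omega)
    subst hR0
    have := ext_empty_card_le F H S ψ
    have hinc : inc F ∅ S = ∅ := by
      rw [Finset.eq_empty_iff_forall_notMem]
      intro e he
      obtain ⟨_, ⟨x, hx, _⟩, _⟩ := mem_inc.1 he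
      simp at hx
    unfold aval
    rw [hinc]
    simp only [card_empty, pow_zero, mul_one]
    exact_mod_cast this
  | succ m ih =>
    intro S R hR hdisj hInv ψ
    by_cases hRne : R.Nonempty
    swap
    · rw [Finset.not_nonempty_iff_eq_empty] at hRne
      exact ih S R (by rw [hRne]; simp) hdisj hInv ψ
    obtain ⟨B, hBR, hBne, hmin, hmin2⟩ := exists_block (aval F n (Real.exp 1 * q) · S) hRne
    have hdisjB : Disjoint S B := Finset.disjoint_of_subset_right hBR hdisj
    have htail := tail_of_min F hn0 hq' hdisj hBR hmin hmin2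
    have hblock := fun φ => block F H hn hV hq hq1 hE hK (S := S) (B := B) φ hdisjB hBne
      (fun A hA hne => hInv A (hA.trans hBR) hne) htail
    have hd1 : Disjoint (R \ B) (B ∪ S) := by
      rw [Finset.disjoint_left]
      intro z hz hz'
      rcases mem_union.1 hz' with h | h
      · exact (mem_sdiff.1 hz).2 h
      · exact Finset.disjoint_left.1 hdisj h (mem_sdiff.1 hz).1
    have hd2 : Disjoint B (R \ B) := Finset.disjoint_sdiff
    have hd3 : Disjoint (S ∪ B) (R \ B) := by
      rw [Finset.disjoint_left]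
      intro z hz hz'
      exact Finset.disjoint_left.1 hd1 hz' (by rw [Finset.union_comm]; exact hz)
    have hsetR : B ∪ R \ B = R := Finset.union_sdiff_of_subset hBR
    have hcardlt : (R \ B).card ≤ m := by
      have : (R \ B).card < R.card := by
        apply Finset.card_lt_card
        refine ⟨Finset.sdiff_subset, fun hsub => ?_⟩
        obtain ⟨x, hx⟩ := hBne
        exact (mem_sdiff.1 (hsub (hBR hx))).2 hx
      omega
    have hrest := fun φ' => ih (S ∪ B) (R \ B) hcardlt hd3
      (inv_step F hn0 hq' hBR hdisj hmin) φ'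
    have hfib := ext_fibers F H (S := S) (B := B) (R := R) ψ hBR hdisj
    have hM0 : 0 ≤ aval F n (Real.exp 1 * q) (R \ B) (S ∪ B) *
        (72 * (1 + Real.log n)) ^ (inc F (R \ B) (S ∪ B)).card := by
      have := aval_pos F hn0 hq' (R \ B) (S ∪ B)
      positivity
    have hA0 : 0 ≤ aval F n (Real.exp 1 * q) B S *
        (72 * (1 + Real.log n)) ^ (inc F B S).card := by
      have := aval_pos F hn0 hq' B S
      positivity
    calc ((Ext F H S R ψ).card : ℝ)
        ≤ (((Ext F H S B ψ).biUnion (fun φ' => Ext F H (S ∪ B) (R \ B) φ')).card : ℝ) := by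
          exact_mod_cast Finset.card_le_card hfib
      _ ≤ (Ext F H S B ψ).card * (aval F n (Real.exp 1 * q) (R \ B) (S ∪ B) *
            (72 * (1 + Real.log n)) ^ (inc F (R \ B) (S ∪ B)).card) :=
          card_biUnion_real _ _ _ (fun φ' _ => hrest φ')
      _ ≤ (aval F n (Real.exp 1 * q) B S * (72 * (1 + Real.log n)) ^ (inc F B S).card) *
            (aval F n (Real.exp 1 * q) (R \ B) (S ∪ B) *
            (72 * (1 + Real.log n)) ^ (inc F (R \ B) (S ∪ B)).card) :=
          mul_le_mul_of_nonneg_right (hblock ψ) hM0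
      _ = _ := by
          have h1 := aval_union F n (Real.exp 1 * q) hd1 hd2
          have h2 := card_inc_union F (A := B) (N := R \ B) (S := S) hd1
          rw [hsetR] at h1 h2
          rw [h1, h2, pow_add]
          ring

/-- The base of the chain: from an embedding on `U`, all densities are at least one. -/
lemma inv_empty (F : SimpleGraph α) (H : SimpleGraph V) {n : ℕ} (hn : 1 ≤ n) {q : ℝ}
    (hq : 0 < q) (hE : HypE H n q) {U : Finset α} {ψ φ0 : α → V}
    (hφ0 : φ0 ∈ Ext F H ∅ U ψ) :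
    ∀ A ⊆ U, A.Nonempty → 1 ≤ aval F n (Real.exp 1 * q) A ∅ := by
  intro A hA _
  obtain ⟨_, hinj, hhom⟩ := mem_Ext.1 hφ0
  have hn1 : (1 : ℝ) ≤ n := by exact_mod_cast hn
  have hn0 : (0 : ℝ) < n := by linarith
  have hmemA : ∀ e ∈ inc F A ∅, ∀ x ∈ e, x ∈ A := by
    intro e he x hx
    obtain ⟨_, _, h2⟩ := mem_inc.1 he
    rcases h2 x hx with h | h
    · exact h
    · simp at h
  have hAU : ∀ x ∈ A, x ∈ (↑(∅ ∪ U) : Set α) := by
    intro x hx
    simpa using hA hx
  set T := (inc F A ∅).image (Sym2.map φ0) with hT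
  have hTE : ∀ e ∈ T, e ∈ H.edgeSet := by
    intro e he
    obtain ⟨e0, he0, rfl⟩ := mem_image.1 he
    obtain ⟨h0, _, _⟩ := mem_inc.1 he0
    have hm := hmemA e0 he0
    induction e0 using Sym2.ind with
    | _ a b =>
      have hab : F.Adj a b := h0
      have ha := hA (hm a (by simp))
      have hb := hA (hm b (by simp))
      exact hhom a b (by simpa using ha) (by simpa using hb) hab
  have hcardT : T.card = (inc F A ∅).card := by
    apply Finset.card_image_of_injOn
    intro e he e' he' h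
    exact sym2_map_inj hinj (fun x hx => hAU x (hmemA e (Finset.mem_coe.1 he) x hx))
      (fun x hx => hAU x (hmemA e' (Finset.mem_coe.1 he') x hx)) h
  have hverts : (T.biUnion (fun e => e.toFinset)).card ≤ A.card := by
    calc _ ≤ (A.image φ0).card := by
          apply Finset.card_le_card
          intro v hv
          simp only [mem_biUnion] at hv
          obtain ⟨e, he, hve⟩ := hv
          obtain ⟨e0, he0, rfl⟩ := mem_image.1 he
          have hv' : v ∈ Sym2.map φ0 e0 := by simpa using hve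
          obtain ⟨z, hz, rfl⟩ := Sym2.mem_map.1 hv'
          exact mem_image.2 ⟨z, hmemA e0 he0 z hz, rfl⟩
      _ ≤ _ := Finset.card_image_le
  have h1 := hE T hTE
  rw [hcardT] at h1
  have h2 : (n : ℝ) ^ (T.biUnion (fun e => e.toFinset)).card ≤ (n : ℝ) ^ A.card :=
    pow_le_pow_right₀ hn1 hverts
  have h3 : 1 ≤ 2 * (n : ℝ) ^ A.card * q ^ (inc F A ∅).card := by
    refine h1.trans ?_
    gcongr
  unfold aval
  rcases Nat.eq_zero_or_pos (inc F A ∅).card with h0 | hpos
  · rw [h0]
    simp only [pow_zero, mul_one]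
    exact one_le_pow₀ hn1
  · rw [mul_pow]
    have hE1 : (2 : ℝ) ≤ Real.exp 1 ^ (inc F A ∅).card := by
      have h5 := Real.exp_one_gt_d9
      calc (2 : ℝ) ≤ Real.exp 1 := by linarith
        _ = Real.exp 1 ^ 1 := (pow_one _).symm
        _ ≤ _ := pow_le_pow_right₀ (by linarith) hpos
    have hp : 0 ≤ (n : ℝ) ^ A.card * q ^ (inc F A ∅).card := by positivity
    nlinarith

end Vale.Agent.Lib.P064
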