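import Vale.Agent.Lib.P064.Core6

open Finset
open scoped Classical

namespace Vale.Agent.Lib.P064

variable {α V : Type} [Fintype α] [Fintype V]

/-- Counting fillings of the isolated vertices. -/
lemma fill_count (F : SimpleGraph α) (H : SimpleGraph V) {U I : Finset α} {φ' : α → V}
    (hd : Disjoint U I) (hinj : Set.InjOn φ' (↑U : Set α)) :
    (Ext F H U I φ').card ≤ (Fintype.card V - U.card).descFactorial I.card := by
  set W : Finset V := univ \ U.image φ' with hW
  have hWcard : W.card = Fintype.card V - U.card := by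
    rw [hW, Finset.card_sdiff_of_subset (Finset.subset_univ _), Finset.card_image_of_injOn hinj]
    simp
  have hmapsW : ∀ φ ∈ Ext F H U I φ', ∀ x ∈ I, φ x ∈ W := by
    intro φ hφ x hx
    obtain ⟨h1, h2, _⟩ := mem_Ext.1 hφ
    refine mem_sdiff.2 ⟨mem_univ _, fun hmem => ?_⟩
    obtain ⟨u, hu, huv⟩ := mem_image.1 hmem
    have huI : u ∉ I := Finset.disjoint_left.1 hd hu
    rw [← h1 u huI] at huv
    have hxu : u = x := h2 (Finset.mem_coe.2 (mem_union_left _ hu))
      (Finset.mem_coe.2 (mem_union_right _ hx)) huv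
    exact huI (hxu.symm ▸ hx)
  let f : ↥(Ext F H U I φ') → (↥I ↪ ↥W) := fun φ =>
    ⟨fun x => ⟨φ.1 x.1, hmapsW φ.1 φ.2 x.1 x.2⟩, by
      intro x y hxy
      have h := congrArg Subtype.val hxy
      obtain ⟨_, h2, _⟩ := mem_Ext.1 φ.2
      exact Subtype.ext (h2 (Finset.mem_coe.2 (mem_union_right _ x.2))
        (Finset.mem_coe.2 (mem_union_right _ y.2)) h)⟩
  have hf : Function.Injective f := by
    intro φ φ' h
    apply Subtype.ext
    funext x
    by_cases hx : x ∈ I
    · have h3 := congrArg (fun g : ↥I ↪ ↥W => (g ⟨x, hx⟩).1) h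
      exact h3
    · rw [(mem_Ext.1 φ.2).1 x hx, (mem_Ext.1 φ'.2).1 x hx]
  have h := Fintype.card_le_of_injective f hf
  rw [Fintype.card_coe, Fintype.card_embedding_eq, Fintype.card_coe, Fintype.card_coe, hWcard] at h
  exact h

/-- `n^v ≤ e^v n(n-1)...(n-v+1)` for `v ≤ n`. -/
lemma pow_le_exp_desc {n v : ℕ} (hv : v ≤ n) :
    (n : ℝ) ^ v ≤ Real.exp v * (n.descFactorial v : ℝ) := by
  have h1 : n ^ v * v.factorial ≤ n.descFactorial v * v ^ v := by
    rw [← Nat.descFactorial_self v, Nat.descFactorial_eq_prod_range, Nat.descFactorial_eq_prod_range]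
    have e1 : n ^ v = ∏ _i ∈ range v, n := by simp
    have e2 : v ^ v = ∏ _i ∈ range v, v := by simp
    rw [e1, e2, ← Finset.prod_mul_distrib, ← Finset.prod_mul_distrib]
    apply Finset.prod_le_prod'
    intro i hi
    have hiv : i < v := mem_range.1 hi
    obtain ⟨b, rfl⟩ := Nat.exists_eq_add_of_le hiv.le
    obtain ⟨a, rfl⟩ := Nat.exists_eq_add_of_le hv
    have e3 : i + b + a - i = b + a := by omega
    have e4 : i + b - i = b := by omega
    rw [e3, e4]
    nlinarith
  have h2 : ((v : ℝ) ^ v) / (v.factorial : ℝ) ≤ Real.exp v :=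
    Real.pow_div_factorial_le_exp _ (by positivity) v
  have hfac : (0 : ℝ) < (v.factorial : ℝ) := by exact_mod_cast v.factorial_pos
  have h3 : (v : ℝ) ^ v ≤ Real.exp v * (v.factorial : ℝ) := (div_le_iff₀ hfac).1 h2
  have h4 : (n : ℝ) ^ v * (v.factorial : ℝ) ≤ (n.descFactorial v : ℝ) * (v : ℝ) ^ v := by
    exact_mod_cast h1
  have h5 : (n : ℝ) ^ v * (v.factorial : ℝ) ≤
      (Real.exp v * (n.descFactorial v : ℝ)) * (v.factorial : ℝ) := by
    calc _ ≤ _ := h4
      _ ≤ (n.descFactorial v : ℝ) * (Real.exp v * (v.factorial : ℝ)) := by gcongr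
      _ = _ := by ring
  exact le_of_mul_le_mul_right h5 hfac

/-- The non-isolated vertices. -/
noncomputable def suppF (F : SimpleGraph α) : Finset α :=
  F.edgeFinset.biUnion (fun e => e.toFinset)

lemma card_suppF_le (F : SimpleGraph α) : (suppF F).card ≤ 2 * F.edgeFinset.card := by
  calc _ ≤ ∑ e ∈ F.edgeFinset, (e.toFinset).card := Finset.card_biUnion_le
    _ ≤ ∑ _e ∈ F.edgeFinset, 2 := by
        apply Finset.sum_le_sum
        intro e _
        rw [Sym2.card_toFinset]
        split_ifs <;> omega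
    _ = _ := by simp [mul_comm]

lemma inc_suppF (F : SimpleGraph α) : inc F (suppF F) ∅ = F.edgeFinset := by
  ext e
  rw [mem_inc, SimpleGraph.mem_edgeFinset]
  constructor
  · exact fun h => h.1
  · intro he
    have hmem : ∀ x ∈ e, x ∈ suppF F := by
      intro x hx
      simp only [suppF, mem_biUnion]
      exact ⟨e, SimpleGraph.mem_edgeFinset.2 he, Sym2.mem_toFinset.2 hx⟩
    refine ⟨he, ?_, fun x hx => Or.inl (hmem x hx)⟩
    induction e using Sym2.ind with
    | _ a b => exact ⟨a, hmem a (by simp), by simp⟩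

/-- The labelled copies of `F` in `H`: main bound. -/
theorem labelled_bound (F : SimpleGraph α) (H : SimpleGraph V) {n : ℕ} (hn : 2 ≤ n)
    (hV : Fintype.card V ≤ n) {q : ℝ} (hq : 0 < q) (hq1 : Real.exp 1 * q ≤ 1)
    (hE : HypE H n q) (hK : HypK H n q) (ψ : α → V) :
    ((Ext F H ∅ univ ψ).card : ℝ) ≤ (n.descFactorial (Fintype.card α) : ℝ) *
      (Real.exp 1 ^ 3 * 72 * (1 + Real.log n) * q) ^ F.edgeFinset.card := by
  have hn1 : (1 : ℝ) ≤ n := by exact_mod_cast (by omega : 1 ≤ n)
  have hL : 0 ≤ Real.log n := Real.log_nonneg hn1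
  have hn0 : (0 : ℝ) < n := by linarith
  by_cases hne : (Ext F H ∅ univ ψ).Nonempty
  swap
  · rw [Finset.not_nonempty_iff_eq_empty] at hne
    rw [hne]
    simp only [card_empty, Nat.cast_zero]
    positivity
  obtain ⟨φ0, hφ0⟩ := hne
  set U := suppF F with hU
  set I : Finset α := univ \ U with hI
  obtain ⟨h01, h02, h03⟩ := mem_Ext.1 hφ0
  have hφ0U : φ0 ∈ Ext F H ∅ U φ0 := by
    refine mem_Ext.2 ⟨fun _ _ => rfl, ?_, ?_⟩
    · intro a ha b hb hab
      exact h02 (by simp) (by simp) hab
    · intro a b _ _ hab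
      exact h03 a b (by simp) (by simp) hab
  have hinv := inv_empty F H (by omega : 1 ≤ n) hq hE hφ0U
  have hchain := chain F H hn hV hq hq1 hE hK U.card ∅ U le_rfl (by simp) hinv ψ
  have hfib := ext_fibers F H (S := ∅) (B := U) (R := univ) ψ (Finset.subset_univ _) (by simp)
  have hUV : U.card ≤ n := by
    have : U.card ≤ (U.image φ0).card := by
      rw [Finset.card_image_of_injOn]
      intro a _ b _ hab
      exact h02 (by simp) (by simp) hab
    exact this.trans ((Finset.card_le_univ _).trans hV)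
  have hfill : ∀ φ' ∈ Ext F H ∅ U ψ, (((Ext F H (∅ ∪ U) (univ \ U) φ').card : ℕ) : ℝ) ≤
      ((n - U.card).descFactorial I.card : ℝ) := by
    intro φ' hφ'
    have hdU : Disjoint U I := Finset.disjoint_sdiff
    have hinj' : Set.InjOn φ' (↑U : Set α) := by
      intro a ha b hb hab
      exact (mem_Ext.1 hφ').2.1 (by simpa using ha) (by simpa using hb) hab
    have h1 := fill_count F H hdU hinj'
    rw [Finset.empty_union]
    have h2 : (Fintype.card V - U.card).descFactorial I.card ≤
        (n - U.card).descFactorial I.card := Nat.descFactorial_le _ (by omega)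
    exact_mod_cast h1.trans h2
  have hcount : ((Ext F H ∅ univ ψ).card : ℝ) ≤
      (Ext F H ∅ U ψ).card * ((n - U.card).descFactorial I.card : ℝ) := by
    calc ((Ext F H ∅ univ ψ).card : ℝ)
        ≤ (((Ext F H ∅ U ψ).biUnion (fun φ' => Ext F H (∅ ∪ U) (univ \ U) φ')).card : ℝ) := by
          exact_mod_cast Finset.card_le_card hfib
      _ ≤ _ := card_biUnion_real _ _ _ hfill
  have hcardI : U.card + I.card = Fintype.card α := by
    rw [hI, Finset.card_sdiff_of_subset (Finset.subset_univ _), Finset.card_univ]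
    have := Finset.card_le_univ U
    omega
  have hdesc : ((n - U.card).descFactorial I.card : ℝ) * (n.descFactorial U.card : ℝ) =
      (n.descFactorial (Fintype.card α) : ℝ) := by
    have := Nat.descFactorial_mul_descFactorial (n := n) (k := U.card) (m := Fintype.card α)
      (by omega)
    have e : Fintype.card α - U.card = I.card := by omega
    rw [e] at this
    exact_mod_cast this
  have hU2 : (U.card : ℝ) ≤ 2 * (F.edgeFinset.card : ℝ) := by
    exact_mod_cast card_suppF_le F
  set t := F.edgeFinset.card with ht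
  have hincU : (inc F U ∅).card = t := by rw [hU, inc_suppF]
  have hexpU : Real.exp (U.card : ℝ) ≤ Real.exp 1 ^ (2 * t) := by
    rw [← Real.exp_nat_mul]
    apply Real.exp_le_exp.2
    push_cast
    linarith
  have hpowU := pow_le_exp_desc hUV
  have hD : (0 : ℝ) ≤ ((n - U.card).descFactorial I.card : ℝ) := by positivity
  have hD2 : (0 : ℝ) ≤ (n.descFactorial U.card : ℝ) := by positivity
  have hΛ : 0 ≤ (72 * (1 + Real.log n)) ^ t := by positivity
  have hq't : 0 ≤ (Real.exp 1 * q) ^ t := by positivity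
  have hstep : ((Ext F H ∅ U ψ).card : ℝ) ≤
      (Real.exp 1 ^ (2 * t) * (n.descFactorial U.card : ℝ)) *
        ((Real.exp 1 * q) ^ t * (72 * (1 + Real.log n)) ^ t) := by
    have h1 := hchain
    unfold aval at h1
    rw [hincU] at h1
    calc _ ≤ _ := h1
      _ = (n : ℝ) ^ U.card * ((Real.exp 1 * q) ^ t * (72 * (1 + Real.log n)) ^ t) := by ring
      _ ≤ (Real.exp (U.card : ℝ) * (n.descFactorial U.card : ℝ)) *
            ((Real.exp 1 * q) ^ t * (72 * (1 + Real.log n)) ^ t) := by gcongr
      _ ≤ _ := by gcongr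
  calc ((Ext F H ∅ univ ψ).card : ℝ)
      ≤ (Ext F H ∅ U ψ).card * ((n - U.card).descFactorial I.card : ℝ) := hcount
    _ ≤ ((Real.exp 1 ^ (2 * t) * (n.descFactorial U.card : ℝ)) *
        ((Real.exp 1 * q) ^ t * (72 * (1 + Real.log n)) ^ t)) *
          ((n - U.card).descFactorial I.card : ℝ) := mul_le_mul_of_nonneg_right hstep hD
    _ = (((n - U.card).descFactorial I.card : ℝ) * (n.descFactorial U.card : ℝ)) *
        (Real.exp 1 ^ (2 * t) * ((Real.exp 1 * q) ^ t * (72 * (1 + Real.log n)) ^ t)) := by ring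
    _ = _ := by
      rw [hdesc]
      congr 1
      rw [pow_mul, ← mul_pow, ← mul_pow]
      congr 1
      ring

end Vale.Agent.Lib.P064
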