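import Vale.Agent.Lib.P064.Core7
import Vale.Agent.Lib.P064.Defs

open Finset
open scoped Classical

namespace Vale.Agent.Lib.P064

section labelled
variable {X W : Type} [Fintype X] [Fintype W]

lemma subgraph_iso_of_eq {G : SimpleGraph X} : ∀ (G1 G2 : G.Subgraph), G1 = G2 →
    ∃ e : G1.coe ≃g G2.coe, ∀ x, (e x).1 = x.1 := by
  rintro _ _ rfl
  exact ⟨SimpleGraph.Iso.refl, fun _ => rfl⟩

lemma isoToSubgraph_val {G : SimpleGraph X} {F : SimpleGraph W} (f : F.Copy G) (x : W) :
    (f.isoToSubgraph x).1 = f x := by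
  rfl

lemma copy_fiber {G : SimpleGraph X} {F : SimpleGraph W} (f0 : F.Copy G) :
    ((univ : Finset (F.Copy G)).filter (fun f => f.toSubgraph = f0.toSubgraph)).card =
      Nat.card (F ≃g F) := by
  have hfin : Finite (F ≃g F) :=
    Finite.of_injective (fun f => (f.toEquiv : Equiv _ _)) (by
      intro f g h
      ext x
      exact congrArg (fun e : Equiv _ _ => e x) h)
  rw [← Fintype.card_subtype, ← Nat.card_eq_fintype_card]
  symm
  apply Nat.card_eq_of_bijective
    (fun σ : F ≃g F => (⟨f0.comp σ.toCopy, by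
      ext u v
      · simp only [SimpleGraph.Subgraph.map_verts, SimpleGraph.Subgraph.verts_top, Set.image_univ,
          Set.mem_range]
        constructor
        · rintro ⟨y, rfl⟩
          exact ⟨σ y, rfl⟩
        · rintro ⟨y, rfl⟩
          refine ⟨σ.symm y, ?_⟩
          simp [SimpleGraph.Copy.comp_apply]
      · simp only [SimpleGraph.Subgraph.map_adj, SimpleGraph.Subgraph.top_adj, Relation.map_apply]
        constructor
        · rintro ⟨a, b, hab, rfl, rfl⟩
          exact ⟨σ a, σ b, σ.map_rel_iff.2 hab, rfl, rfl⟩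
        · rintro ⟨a, b, hab, rfl, rfl⟩
          refine ⟨σ.symm a, σ.symm b, ?_, ?_, ?_⟩
          · simpa using σ.symm.map_rel_iff.2 hab
          · simp [SimpleGraph.Copy.comp_apply]
          · simp [SimpleGraph.Copy.comp_apply]⟩ : {f : F.Copy G // f.toSubgraph = f0.toSubgraph}))
  constructor
  · intro σ τ h
    ext x
    have h1 := congrArg (fun f : {f : F.Copy G // f.toSubgraph = f0.toSubgraph} => f.1 x) h
    exact f0.injective h1
  · rintro ⟨f, hf⟩
    obtain ⟨e, he⟩ := subgraph_iso_of_eq _ _ hf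
    refine ⟨f.isoToSubgraph.trans (e.trans f0.isoToSubgraph.symm), ?_⟩
    apply Subtype.ext
    ext x
    have h1 : f0 ((f.isoToSubgraph.trans (e.trans f0.isoToSubgraph.symm)) x) =
        (f0.isoToSubgraph ((f.isoToSubgraph.trans (e.trans f0.isoToSubgraph.symm)) x)).1 :=
      (isoToSubgraph_val f0 _).symm
    have h2 : f0.isoToSubgraph ((f.isoToSubgraph.trans (e.trans f0.isoToSubgraph.symm)) x) =
        e (f.isoToSubgraph x) := by
      exact RelIso.apply_symm_apply f0.isoToSubgraph (e (f.isoToSubgraph x))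
    change f0 ((f.isoToSubgraph.trans (e.trans f0.isoToSubgraph.symm)) x) = f x
    rw [h1, h2, he, isoToSubgraph_val]

/-- Labelled copies are copies times automorphisms. -/
theorem labelled_eq (G : SimpleGraph X) (F : SimpleGraph W) :
    G.labelledCopyCount F = G.copyCount F * Nat.card (F ≃g F) := by
  rw [SimpleGraph.copyCount_eq_card_image_copyToSubgraph]
  have h1 : G.labelledCopyCount F = (univ : Finset (F.Copy G)).card := by
    rw [Finset.card_univ, SimpleGraph.labelledCopyCount]
  rw [h1, Finset.card_eq_sum_card_image (SimpleGraph.Copy.toSubgraph) univ]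
  rw [← smul_eq_mul, ← Finset.sum_const]
  apply Finset.sum_congr rfl
  intro G' hG'
  obtain ⟨f0, _, rfl⟩ := mem_image.1 hG'
  exact copy_fiber f0

end labelled

lemma sum_weight {β : Type} (U T : Finset β) (hT : T ⊆ U) (p : ℝ) :
    ∑ A ∈ U.powerset, (if T ⊆ A then p ^ A.card * (1 - p) ^ (U.card - A.card) else 0) =
      p ^ T.card := by
  rw [← Finset.sum_filter]
  have h1 : ∑ A ∈ U.powerset.filter (fun A => T ⊆ A), p ^ A.card * (1 - p) ^ (U.card - A.card) =
      ∑ B ∈ (U \ T).powerset, p ^ (B ∪ T).card * (1 - p) ^ (U.card - (B ∪ T).card) := by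
    symm
    apply Finset.sum_bij' (fun B _ => B ∪ T) (fun A _ => A \ T)
    · intro B hB
      have hB' := Finset.mem_powerset.1 hB
      refine mem_filter.2 ⟨Finset.mem_powerset.2 (Finset.union_subset
        (hB'.trans Finset.sdiff_subset) hT), Finset.subset_union_right⟩
    · intro A hA
      obtain ⟨hA1, _⟩ := mem_filter.1 hA
      exact Finset.mem_powerset.2 (Finset.sdiff_subset_sdiff (Finset.mem_powerset.1 hA1) le_rfl)
    · intro B hB
      have hB' := Finset.mem_powerset.1 hB
      ext z
      simp only [mem_sdiff, mem_union]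
      constructor
      · rintro ⟨h | h, h'⟩
        · exact h
        · exact absurd h h'
      · intro h
        exact ⟨Or.inl h, (mem_sdiff.1 (hB' h)).2⟩
    · intro A hA
      obtain ⟨_, hA2⟩ := mem_filter.1 hA
      exact Finset.sdiff_union_of_subset hA2
    · intro B hB
      rfl
  rw [h1]
  have h2 : ∀ B ∈ (U \ T).powerset, p ^ (B ∪ T).card * (1 - p) ^ (U.card - (B ∪ T).card) =
      p ^ T.card * (p ^ B.card * (1 - p) ^ ((U \ T).card - B.card)) := by
    intro B hB
    have hB' := Finset.mem_powerset.1 hB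
    have hdisj : Disjoint B T := Finset.disjoint_of_subset_left hB' Finset.sdiff_disjoint
    have hc : (U \ T).card = U.card - T.card := Finset.card_sdiff_of_subset hT
    have hTU : T.card ≤ U.card := Finset.card_le_card hT
    have hBle : B.card ≤ (U \ T).card := Finset.card_le_card hB'
    rw [Finset.card_union_of_disjoint hdisj, pow_add]
    have he : U.card - (B.card + T.card) = (U \ T).card - B.card := by omega
    rw [he]
    ring
  rw [Finset.sum_congr rfl h2, ← Finset.mul_sum, Finset.sum_pow_mul_eq_add_pow]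
  simp

lemma edgeFinset_fromEdgeSet_of_sub {n : ℕ} {A : Finset (Sym2 (Fin n))}
    (hA : A ⊆ (⊤ : SimpleGraph (Fin n)).edgeFinset)
    (inst : Fintype (SimpleGraph.fromEdgeSet (↑A : Set (Sym2 (Fin n)))).edgeSet) :
    @SimpleGraph.edgeFinset _ (SimpleGraph.fromEdgeSet (↑A : Set (Sym2 (Fin n)))) inst = A := by
  ext e
  rw [SimpleGraph.mem_edgeFinset, SimpleGraph.edgeSet_fromEdgeSet]
  constructor
  · intro h
    exact Finset.mem_coe.1 h.1
  · intro h
    refine ⟨Finset.mem_coe.2 h, ?_⟩
    have h1 := SimpleGraph.mem_edgeFinset.1 (hA h)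
    exact SimpleGraph.not_isDiag_of_mem_edgeSet _ h1

lemma graph_sum {n : ℕ} (g : Finset (Sym2 (Fin n)) → ℝ) :
    ∑ G : SimpleGraph (Fin n), g G.edgeFinset =
      ∑ A ∈ (⊤ : SimpleGraph (Fin n)).edgeFinset.powerset, g A := by
  apply Finset.sum_bij' (fun (G : SimpleGraph (Fin n)) _ => (G.edgeFinset : Finset (Sym2 (Fin n))))
    (fun (A : Finset (Sym2 (Fin n))) _ => SimpleGraph.fromEdgeSet (↑A : Set (Sym2 (Fin n))))
  · intro G _
    exact Finset.mem_powerset.2 (SimpleGraph.edgeFinset_mono le_top)
  · intro A _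
    exact mem_univ _
  · intro G _
    simp only [SimpleGraph.coe_edgeFinset, SimpleGraph.fromEdgeSet_edgeSet]
  · intro A hA
    exact edgeFinset_fromEdgeSet_of_sub (Finset.mem_powerset.1 hA) _
  · intro G _
    rfl

lemma gnpWeight_eq (n : ℕ) (p : ℝ) (G : SimpleGraph (Fin n)) :
    gnpWeight n p G = p ^ G.edgeFinset.card *
      (1 - p) ^ ((⊤ : SimpleGraph (Fin n)).edgeFinset.card - G.edgeFinset.card) := by
  have h1 : G.edgeSet.ncard = G.edgeFinset.card := by
    rw [← SimpleGraph.coe_edgeFinset, Set.ncard_coe_finset]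
  have h2 : (⊤ : SimpleGraph (Fin n)).edgeFinset.card = n.choose 2 := by
    have := SimpleGraph.card_edgeFinset_top_eq_card_choose_two (V := Fin n)
    rw [Fintype.card_fin] at this
    convert this
  unfold gnpWeight
  rw [h1, h2]

/-- Probability that a given set of edges is present. -/
lemma sum_gnp_indicator (n : ℕ) (p : ℝ) (T : Finset (Sym2 (Fin n)))
    (hT : T ⊆ (⊤ : SimpleGraph (Fin n)).edgeFinset) :
    ∑ G : SimpleGraph (Fin n), gnpWeight n p G * (if T ⊆ G.edgeFinset then (1 : ℝ) else 0) =
      p ^ T.card := by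
  have h := sum_weight _ T hT p
  have hg := graph_sum (n := n) (fun A => (if T ⊆ A then p ^ A.card *
    (1 - p) ^ ((⊤ : SimpleGraph (Fin n)).edgeFinset.card - A.card) else 0))
  calc _ = ∑ G : SimpleGraph (Fin n), (if T ⊆ G.edgeFinset then p ^ G.edgeFinset.card *
        (1 - p) ^ ((⊤ : SimpleGraph (Fin n)).edgeFinset.card - G.edgeFinset.card) else 0) := by
        apply Finset.sum_congr rfl
        intro G _
        rw [gnpWeight_eq]
        split_ifs <;> simp
    _ = _ := hg
    _ = _ := by convert h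

end Vale.Agent.Lib.P064
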