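import Vale.Agent.Lib.P064.Core8

open Finset
open scoped Classical

namespace Vale.Agent.Lib.P064

lemma card_inst_eq {β : Type} (i1 i2 : Fintype β) : @Fintype.card β i1 = @Fintype.card β i2 := by
  rw [Subsingleton.elim i1 i2]

section formula
variable {W : Type} [Fintype W] {n : ℕ}

/-- The image of the edge set of `F` under an embedding. -/
noncomputable def imgEdges (F : SimpleGraph W) (f : W ↪ Fin n) : Finset (Sym2 (Fin n)) :=
  F.edgeFinset.image (Sym2.map f)

lemma imgEdges_sub_iff (F : SimpleGraph W) (G : SimpleGraph (Fin n)) (f : W ↪ Fin n) :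
    imgEdges F f ⊆ G.edgeFinset ↔ ∀ a b, F.Adj a b → G.Adj (f a) (f b) := by
  constructor
  · intro h a b hab
    have h1 : s(f a, f b) ∈ imgEdges F f :=
      mem_image.2 ⟨s(a, b), SimpleGraph.mem_edgeFinset.2 hab, by simp⟩
    exact SimpleGraph.mem_edgeFinset.1 (h h1)
  · intro h e he
    obtain ⟨e0, he0, rfl⟩ := mem_image.1 he
    have he0' := SimpleGraph.mem_edgeFinset.1 he0
    rw [SimpleGraph.mem_edgeFinset]
    induction e0 using Sym2.ind with
    | _ a b => exact h a b he0'

lemma card_imgEdges (F : SimpleGraph W) (f : W ↪ Fin n) :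
    (imgEdges F f).card = F.edgeFinset.card :=
  Finset.card_image_of_injective _ (Sym2.map.injective f.injective)

lemma imgEdges_sub_top (F : SimpleGraph W) (f : W ↪ Fin n) :
    imgEdges F f ⊆ (⊤ : SimpleGraph (Fin n)).edgeFinset := by
  intro e he
  obtain ⟨e0, he0, rfl⟩ := mem_image.1 he
  have he0' := SimpleGraph.mem_edgeFinset.1 he0
  rw [SimpleGraph.mem_edgeFinset]
  induction e0 using Sym2.ind with
  | _ a b =>
    have hab : F.Adj a b := he0'
    simp only [Sym2.map_mk, SimpleGraph.mem_edgeSet, SimpleGraph.top_adj]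
    exact fun h => hab.ne (f.injective h)

lemma labelled_as_sum (G : SimpleGraph (Fin n)) (F : SimpleGraph W) :
    (G.labelledCopyCount F : ℝ) =
      ∑ f : W ↪ Fin n, (if imgEdges F f ⊆ G.edgeFinset then (1 : ℝ) else 0) := by
  rw [Finset.sum_boole]
  congr 1
  have hL : G.labelledCopyCount F = (univ : Finset (F.Copy G)).card := by
    unfold SimpleGraph.labelledCopyCount
    exact card_inst_eq _ _
  rw [hL]
  have himg : (univ : Finset (W ↪ Fin n)).filter (fun f => imgEdges F f ⊆ G.edgeFinset) =
      (univ : Finset (F.Copy G)).image (fun c => c.toEmbedding) := by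
    ext f
    simp only [mem_filter, mem_univ, true_and, mem_image]
    constructor
    · intro h
      have h' := (imgEdges_sub_iff F G f).1 h
      refine ⟨⟨⟨f, fun {a b} hab => h' a b hab⟩, f.injective⟩, ?_⟩
      ext x
      rfl
    · rintro ⟨c, rfl⟩
      rw [imgEdges_sub_iff]
      intro a b hab
      exact c.toHom.map_adj hab
  rw [himg, Finset.card_image_of_injective]
  intro c c' h
  apply SimpleGraph.Copy.ext
  intro x
  exact congrArg (fun g : W ↪ Fin n => g x) h

/-- The expectation formula. -/
theorem expCount_mul (p : ℝ) (F : SimpleGraph W) :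
    expCount n p F * (Nat.card (F ≃g F) : ℝ) =
      (n.descFactorial (Fintype.card W) : ℝ) * p ^ F.edgeFinset.card := by
  have h1 : expCount n p F * (Nat.card (F ≃g F) : ℝ) =
      ∑ G : SimpleGraph (Fin n), gnpWeight n p G * (G.labelledCopyCount F : ℝ) := by
    unfold expCount
    rw [Finset.sum_mul]
    apply Finset.sum_congr rfl
    intro G _
    rw [labelled_eq]
    push_cast
    ring
  rw [h1]
  have h2 : ∑ G : SimpleGraph (Fin n), gnpWeight n p G * (G.labelledCopyCount F : ℝ) =
      ∑ f : W ↪ Fin n, ∑ G : SimpleGraph (Fin n), gnpWeight n p G *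
        (if imgEdges F f ⊆ G.edgeFinset then (1 : ℝ) else 0) := by
    rw [Finset.sum_comm]
    apply Finset.sum_congr rfl
    intro G _
    rw [labelled_as_sum, Finset.mul_sum]
  rw [h2]
  have h3 : ∀ f : W ↪ Fin n, ∑ G : SimpleGraph (Fin n), gnpWeight n p G *
      (if imgEdges F f ⊆ G.edgeFinset then (1 : ℝ) else 0) = p ^ F.edgeFinset.card := by
    intro f
    rw [sum_gnp_indicator n p _ (imgEdges_sub_top F f), card_imgEdges]
  rw [Finset.sum_congr rfl (fun f _ => h3 f)]
  rw [Finset.sum_const, Finset.card_univ, nsmul_eq_mul, Fintype.card_embedding_eq, Fintype.card_fin]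

end formula

lemma copyCount_congr {X W W' : Type} [Fintype X] {K : SimpleGraph W} {K' : SimpleGraph W'}
    (e : K ≃g K') (G : SimpleGraph X) : G.copyCount K = G.copyCount K' := by
  unfold SimpleGraph.copyCount
  congr 1
  ext G'
  simp only [mem_filter, mem_univ, true_and]
  constructor
  · rintro ⟨f⟩
    exact ⟨e.symm.trans f⟩
  · rintro ⟨f⟩
    exact ⟨e.trans f⟩

lemma expCount_congr {W W' : Type} {K : SimpleGraph W} {K' : SimpleGraph W'} (n : ℕ) (p : ℝ)
    (e : K ≃g K') : expCount n p K = expCount n p K' := by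
  unfold expCount
  apply Finset.sum_congr rfl
  intro G _
  rw [copyCount_congr e]

lemma card_aut_pos {W : Type} [Fintype W] (K : SimpleGraph W) : 0 < Nat.card (K ≃g K) := by
  have hfin : Finite (K ≃g K) :=
    Finite.of_injective (fun f => (f.toEquiv : Equiv _ _)) (by
      intro f g h
      ext x
      exact congrArg (fun e : Equiv _ _ => e x) h)
  have hne : Nonempty (K ≃g K) := ⟨SimpleGraph.Iso.refl⟩
  exact Nat.card_pos

variable {V : Type} [Fintype V]

lemma hypK_of {H : SimpleGraph V} {n : ℕ} {q : ℝ} (hq0 : 0 ≤ q)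
    (hq : ∀ F : H.Subgraph, (1 : ℝ) / 2 ≤ expCount n q F.coe) : HypK H n q := by
  intro W _ K ⟨f⟩
  have h1 : (1 : ℝ) / 2 ≤ expCount n q K := by
    rw [expCount_congr n q f.isoToSubgraph]
    exact hq f.toSubgraph
  have h2 := expCount_mul (n := n) q K
  have hA : (0 : ℝ) < Nat.card (K ≃g K) := by exact_mod_cast card_aut_pos K
  have h3 : (n.descFactorial (Fintype.card W) : ℝ) ≤ (n : ℝ) ^ Fintype.card W := by
    exact_mod_cast Nat.descFactorial_le_pow n _
  have h4 : (1 : ℝ) / 2 * (Nat.card (K ≃g K) : ℝ) ≤ expCount n q K * (Nat.card (K ≃g K) : ℝ) :=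
    mul_le_mul_of_nonneg_right h1 hA.le
  rw [h2] at h4
  have h5 : (n.descFactorial (Fintype.card W) : ℝ) * q ^ K.edgeFinset.card ≤
      (n : ℝ) ^ Fintype.card W * q ^ K.edgeFinset.card :=
    mul_le_mul_of_nonneg_right h3 (by positivity)
  linarith

lemma hypE_of_hypK {H : SimpleGraph V} {n : ℕ} {q : ℝ} (hK : HypK H n q) : HypE H n q := by
  intro T hT
  set vs := T.biUnion (fun e => e.toFinset) with hvs
  let K : SimpleGraph ↥vs :=
    { Adj := fun a b => s(a.1, b.1) ∈ T
      symm := ⟨fun a b h => by rw [Sym2.eq_swap]; exact h⟩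
      loopless := ⟨fun a h => by
        have h1 := hT _ h
        exact H.loopless.irrefl a.1 h1⟩ }
  have hcopy : Nonempty (K.Copy H) :=
    ⟨⟨⟨fun a => a.1, fun {a b} h => hT _ h⟩, Subtype.val_injective⟩⟩
  have h1 := hK _ K hcopy
  have hedge : ∀ (inst : Fintype K.edgeSet), (@SimpleGraph.edgeFinset _ K inst).card = T.card := by
    intro inst
    have himg : T = (@SimpleGraph.edgeFinset _ K inst).image (Sym2.map Subtype.val) := by
      ext e
      simp only [mem_image, SimpleGraph.mem_edgeFinset]
      constructor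
      · intro he
        have hmem : ∀ x ∈ e, x ∈ vs := by
          intro x hx
          exact mem_biUnion.2 ⟨e, he, Sym2.mem_toFinset.2 hx⟩
        revert he hmem
        induction e using Sym2.ind with
        | _ a b =>
          intro he hmem
          exact ⟨s(⟨a, hmem a (by simp)⟩, ⟨b, hmem b (by simp)⟩), he, rfl⟩
      · rintro ⟨e0, he0, rfl⟩
        revert he0
        induction e0 using Sym2.ind with
        | _ a b =>
          intro he0
          exact he0
    conv_rhs => rw [himg]
    rw [Finset.card_image_of_injective _ (Sym2.map.injective Subtype.val_injective)]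
  rw [hedge] at h1
  have hA : (1 : ℝ) ≤ Nat.card (K ≃g K) := by exact_mod_cast card_aut_pos K
  have hcard : Fintype.card ↥vs = vs.card := Fintype.card_coe vs
  rw [hcard] at h1
  linarith

/-- Labelled copies inject into extensions. -/
lemma labelled_le_ext {α : Type} [Fintype α] (F : SimpleGraph α) (H : SimpleGraph V)
    (ψ : α → V) : H.labelledCopyCount F ≤ (Ext F H ∅ univ ψ).card := by
  have hL : H.labelledCopyCount F = Nat.card (F.Copy H) := by
    unfold SimpleGraph.labelledCopyCount
    exact Nat.card_eq_fintype_card.symm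
  rw [hL, Nat.card_eq_fintype_card, ← Fintype.card_coe]
  apply Fintype.card_le_of_injective (fun c : F.Copy H => (⟨⇑c, by
    refine mem_Ext.2 ⟨fun x hx => absurd (mem_univ x) hx, ?_, ?_⟩
    · exact c.injective.injOn
    · intro x y _ _ hxy
      exact c.toHom.map_adj hxy⟩ : ↥(Ext F H ∅ univ ψ)))
  intro c c' h
  ext x
  have := congrArg (fun g : ↥(Ext F H ∅ univ ψ) => g.1 x) h
  exact this

end Vale.Agent.Lib.P064
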