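import Vale.Agent.Lib.P064.Core9

open Finset
open scoped Classical

namespace Vale.Agent.Lib.P064

variable {V : Type} [Fintype V]

lemma copy_mul_eq {W : Type} [Fintype W] (H : SimpleGraph V) (X : SimpleGraph W) :
    (H.copyCount X : ℝ) * (Nat.card (X ≃g X) : ℝ) = (H.labelledCopyCount X : ℝ) := by
  rw [labelled_eq]; push_cast; ring

lemma key_bound (H : SimpleGraph V) {n : ℕ} (hn : 2 ≤ n) (hV : Fintype.card V ≤ n)
    {q p : ℝ} (hq : 0 < q) (hq1 : Real.exp 1 * q ≤ 1)
    (hq2 : ∀ F : H.Subgraph, (1 : ℝ) / 2 ≤ expCount n q F.coe)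
    (hp : Real.exp 1 ^ 3 * 72 * (1 + Real.log n) * q ≤ p)
    {W : Type} [Fintype W] (X : SimpleGraph W) :
    (H.copyCount X : ℝ) ≤ expCount n p X := by
  have hn1 : (1 : ℝ) ≤ n := by exact_mod_cast (by omega : 1 ≤ n)
  have hL : 0 ≤ Real.log n := Real.log_nonneg hn1
  have hK := hypK_of hq.le hq2
  have hE := hypE_of_hypK hK
  have hA : (0 : ℝ) < Nat.card (X ≃g X) := by exact_mod_cast card_aut_pos X
  have hbase : 0 ≤ Real.exp 1 ^ 3 * 72 * (1 + Real.log n) * q := by positivity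
  have hp0 : 0 ≤ p := hbase.trans hp
  apply le_of_mul_le_mul_right _ hA
  rw [copy_mul_eq, expCount_mul]
  by_cases hc : Nonempty (X.Copy H)
  · obtain ⟨c⟩ := hc
    have h1 := labelled_le_ext X H (⇑c)
    have h2 := labelled_bound X H hn hV hq hq1 hE hK (⇑c)
    calc (H.labelledCopyCount X : ℝ) ≤ ((Ext X H ∅ univ ⇑c).card : ℝ) := by exact_mod_cast h1
      _ ≤ _ := h2
      _ ≤ _ := by gcongr
  · have h0 : H.labelledCopyCount X = 0 := by
      rw [SimpleGraph.labelledCopyCount_eq_zero]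
      exact fun hcon => hc hcon
    rw [h0]
    simp only [Nat.cast_zero]
    positivity

lemma top_bound (H : SimpleGraph V) {n : ℕ} (hV : Fintype.card V ≤ n)
    {W : Type} [Fintype W] (X : SimpleGraph W) :
    (H.copyCount X : ℝ) ≤ expCount n 1 X := by
  have hA : (0 : ℝ) < Nat.card (X ≃g X) := by exact_mod_cast card_aut_pos X
  apply le_of_mul_le_mul_right _ hA
  rw [copy_mul_eq, expCount_mul]
  simp only [one_pow, mul_one]
  have h1 : H.labelledCopyCount X ≤ Fintype.card (W ↪ V) := by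
    have hL : H.labelledCopyCount X = Nat.card (X.Copy H) := by
      unfold SimpleGraph.labelledCopyCount
      exact (Nat.card_eq_fintype_card).symm
    rw [hL, ← Nat.card_eq_fintype_card]
    have hfin : Finite (W ↪ V) := inferInstance
    apply Nat.card_le_card_of_injective (fun c : X.Copy H => c.toEmbedding)
    intro c c' h
    apply SimpleGraph.Copy.ext
    intro x
    exact congrArg (fun g : W ↪ V => g x) h
  rw [Fintype.card_embedding_eq] at h1
  have h2 : (Fintype.card V).descFactorial (Fintype.card W) ≤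
      n.descFactorial (Fintype.card W) := Nat.descFactorial_le _ hV
  exact_mod_cast h1.trans h2

lemma q_pos {H : SimpleGraph V} (hH : H ≠ ⊥) {n : ℕ} {q : ℝ} (hq0 : 0 ≤ q) (hK : HypK H n q) :
    0 < q := by
  rcases hq0.lt_or_eq with h | h
  · exact h
  · exfalso
    have h1 := hK V H ⟨SimpleGraph.Copy.id H⟩
    have hA : (1 : ℝ) ≤ Nat.card (H ≃g H) := by exact_mod_cast card_aut_pos H
    have he : H.edgeFinset.card ≠ 0 := by
      intro h0
      apply hH
      have : H.edgeFinset = ∅ := Finset.card_eq_zero.1 h0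
      exact SimpleGraph.edgeFinset_eq_empty.1 this
    rw [← h, zero_pow he] at h1
    simp only [mul_zero] at h1
    linarith

lemma numeric_C {n : ℕ} (hn : 2 ≤ n) :
    Real.exp 1 ^ 3 * 72 * (1 + Real.log n) ≤ 4000 * Real.log n := by
  have h2 : (2 : ℝ) ≤ n := by exact_mod_cast hn
  have hlog : Real.log 2 ≤ Real.log n := Real.log_le_log (by norm_num) h2
  have h3 := Real.log_two_gt_d9
  have hL : (0.6931 : ℝ) ≤ Real.log n := by linarith
  have hE := Real.exp_one_lt_d9
  have hE0 := Real.exp_pos 1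
  have hE3 : Real.exp 1 ^ 3 ≤ 20.1 := by
    calc Real.exp 1 ^ 3 ≤ (2.7182818286 : ℝ) ^ 3 := pow_le_pow_left₀ hE0.le hE.le 3
      _ ≤ 20.1 := by norm_num
  have h4 : Real.exp 1 ^ 3 * 72 ≤ 1447.2 := by linarith
  have h5 : 0 ≤ Real.exp 1 ^ 3 * 72 := by positivity
  have h6 : 0 ≤ 1 + Real.log n := by linarith
  calc Real.exp 1 ^ 3 * 72 * (1 + Real.log n) ≤ 1447.2 * (1 + Real.log n) :=
        mul_le_mul_of_nonneg_right h4 h6
    _ ≤ _ := by nlinarith

/-- The pointwise bound. -/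
theorem pointwise_bound {n : ℕ} (hn : 2 ≤ n) (H : SimpleGraph V) (hV : Fintype.card V ≤ n)
    (hH : H ≠ ⊥) {q : ℝ} (hq0 : 0 ≤ q)
    (hqF : ∀ F : H.Subgraph, (1 : ℝ) / 2 ≤ expCount n q F.coe) (F : H.Subgraph) :
    (H.copyCount F.coe : ℝ) ≤ expCount n (min 1 (4000 * Real.log n * q)) F.coe := by
  have h2 : (2 : ℝ) ≤ n := by exact_mod_cast hn
  have hlog : Real.log 2 ≤ Real.log n := Real.log_le_log (by norm_num) h2
  have hlog2 := Real.log_two_gt_d9
  have hL : (0.6931 : ℝ) ≤ Real.log n := by linarith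
  have hCnpos : 2772 ≤ 4000 * Real.log n := by linarith
  have hqpos : 0 < q := q_pos hH hq0 (hypK_of hq0 hqF)
  by_cases hcase : 1 ≤ 4000 * Real.log n * q
  · rw [min_eq_left hcase]
    exact top_bound H hV F.coe
  · push Not at hcase
    rw [min_eq_right hcase.le]
    have hqsmall : Real.exp 1 * q ≤ 1 := by
      have hE := Real.exp_one_lt_d9
      have : 2772 * q ≤ 4000 * Real.log n * q := mul_le_mul_of_nonneg_right hCnpos hq0
      nlinarith
    have hbound : Real.exp 1 ^ 3 * 72 * (1 + Real.log n) * q ≤ 4000 * Real.log n * q :=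
      mul_le_mul_of_nonneg_right (numeric_C hn) hq0
    exact key_bound H hn hV hqpos hqsmall hqF hbound F.coe

/-- The main theorem. -/
theorem tilde_bound {n : ℕ} (hn : 2 ≤ n) (H : SimpleGraph V) (hV : Fintype.card V ≤ n)
    (hH : H ≠ ⊥) : pTilde n H ≤ 4000 * Real.log n * pE n H := by
  have h2 : (2 : ℝ) ≤ n := by exact_mod_cast hn
  have hlog : Real.log 2 ≤ Real.log n := Real.log_le_log (by norm_num) h2
  have hlog2 := Real.log_two_gt_d9
  have hL : (0.6931 : ℝ) ≤ Real.log n := by linarith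
  set Cn : ℝ := 4000 * Real.log n with hCn
  have hCnpos : 2772 ≤ Cn := by rw [hCn]; linarith
  have hbdd : BddBelow {p : ℝ | 0 ≤ p ∧ p ≤ 1 ∧ ∀ F : H.Subgraph,
      (H.copyCount F.coe : ℝ) / 2 ≤ expCount n p F.coe} := ⟨0, fun p hp => hp.1⟩
  have hsubcount : ∀ F : H.Subgraph, 1 ≤ H.copyCount F.coe := by
    intro F
    have : 0 < H.copyCount F.coe := SimpleGraph.copyCount_pos.2 F.coe_isContained
    omega
  have htop : ∀ F : H.Subgraph, (H.copyCount F.coe : ℝ) ≤ expCount n 1 F.coe := by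
    intro F
    exact top_bound H hV F.coe
  have h1E : (1 : ℝ) ∈ {p : ℝ | 0 ≤ p ∧ p ≤ 1 ∧ ∀ F : H.Subgraph,
      (1 : ℝ) / 2 ≤ expCount n p F.coe} := by
    refine ⟨by norm_num, le_rfl, fun F => ?_⟩
    have h1 := htop F
    have h0 : (1 : ℝ) ≤ H.copyCount F.coe := by exact_mod_cast hsubcount F
    linarith
  have hkey : ∀ q ∈ {p : ℝ | 0 ≤ p ∧ p ≤ 1 ∧ ∀ F : H.Subgraph,
      (1 : ℝ) / 2 ≤ expCount n p F.coe}, pTilde n H / Cn ≤ q := by
    rintro q ⟨hq0, hq1, hqF⟩
    have hqpos : 0 < q := q_pos hH hq0 (hypK_of hq0 hqF)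
    rw [div_le_iff₀ (by linarith)]
    have hmin : min 1 (Cn * q) ≤ q * Cn := by
      rw [mul_comm q Cn]; exact min_le_right _ _
    refine le_trans ?_ hmin
    have hmem : min 1 (Cn * q) ∈ {p : ℝ | 0 ≤ p ∧ p ≤ 1 ∧ ∀ F : H.Subgraph,
        (H.copyCount F.coe : ℝ) / 2 ≤ expCount n p F.coe} := by
      refine ⟨le_min (by norm_num) (by positivity), min_le_left _ _, fun F => ?_⟩
      have h1 := pointwise_bound hn H hV hH hq0 hqF F
      have h0 : (0 : ℝ) ≤ H.copyCount F.coe := by positivity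
      linarith
    exact csInf_le hbdd hmem
  have hfinal : pTilde n H / Cn ≤ pE n H := le_csInf ⟨1, h1E⟩ hkey
  rw [div_le_iff₀ (by linarith)] at hfinal
  rw [mul_comm] at hfinal
  exact hfinal

end Vale.Agent.Lib.P064
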